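import Vale.Agent.P083.Tower

/-! The algebra. -/

open InnerProductSpace

namespace Vale.Agent.P083

section Ops

variable {Ω : Type} [DecidableEq Ω]

/-- the Hilbert space -/
noncomputable abbrev L2 (Ω : Type) := lp (fun _ : Ω => ℂ) 2

/-- the basis vectors -/
noncomputable def ee (w : Ω) : L2 Ω := lp.single 2 w 1

theorem inner_ee (a : Ω) (x : L2 Ω) : ⟪ee a, x⟫_ℂ = x a := by
  rw [ee, lp.inner_single_left]; simp

theorem inner_ee_ee (a b : Ω) : ⟪ee a, ee b⟫_ℂ = if a = b then 1 else 0 := by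
  rw [inner_ee, ee, lp.single_apply, Pi.single_apply]

theorem ee_on (f : Ω ↪ Ω) : Orthonormal ℂ fun w => ee (f w) := by
  rw [orthonormal_iff_ite]
  intro a b
  rw [inner_ee_ee]
  simp only [f.injective.eq_iff]

/-- the isometry attached to an injection -/
noncomputable def Vop (f : Ω ↪ Ω) : L2 Ω →L[ℂ] L2 Ω :=
  (ee_on f).orthogonalFamily.linearIsometry.toContinuousLinearMap

theorem Vop_ee (f : Ω ↪ Ω) (w : Ω) : Vop f (ee w) = ee (f w) := by
  have := (ee_on f).orthogonalFamily.linearIsometry_apply_single (i := w) (1 : ℂ)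
  exact this.trans (one_smul ℂ _)

theorem ext_ee {A B : L2 Ω →L[ℂ] L2 Ω} (h : ∀ w, A (ee w) = B (ee w)) : A = B := by
  refine lp.ext_continuousLinearMap (ENNReal.ofNat_ne_top (n := nat_lit 2)) fun i => ?_
  refine ContinuousLinearMap.ext_ring ?_
  exact h i

theorem star_mul_ee (f g : Ω ↪ Ω) (a b : Ω) :
    (star (Vop f) * Vop g) (ee b) a = if f a = g b then 1 else 0 := by
  rw [← inner_ee, ContinuousLinearMap.mul_apply, ContinuousLinearMap.star_eq_adjoint,
    ContinuousLinearMap.adjoint_inner_right, Vop_ee, Vop_ee, inner_ee_ee]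

theorem Vop_iso (f : Ω ↪ Ω) : star (Vop f) * Vop f = 1 := by
  refine ext_ee fun b => lp.ext (funext fun a => ?_)
  rw [star_mul_ee, ContinuousLinearMap.one_apply, ← inner_ee, inner_ee_ee]
  simp only [f.injective.eq_iff]

theorem Vop_orth {f g : Ω ↪ Ω} (h : ∀ a b, f a ≠ g b) : star (Vop f) * Vop g = 0 := by
  refine ext_ee fun b => lp.ext (funext fun a => ?_)
  rw [star_mul_ee, if_neg (h a b)]
  rfl

end Ops

theorem sep_adjoin {B : Type*} [CStarAlgebra B] {s : Set B} (hs : s.Countable) :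
    TopologicalSpace.SeparableSpace (StarAlgebra.adjoin ℂ s).topologicalClosure := by
  have h1 : (s ∪ star s).Countable := hs.union (hs.preimage star_injective)
  have h2 : (Submonoid.closure (s ∪ star s) : Set B).Countable := by
    rw [Submonoid.closure_eq_mrange]
    have := h1.to_subtype
    have : Countable (FreeMonoid ↥(s ∪ star s)) := inferInstanceAs (Countable (List _))
    exact Set.countable_range _
  have h3 := (h2.isSeparable.span (R := ℂ)).closure
  rw [← StarAlgebra.adjoin_eq_span] at h3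
  exact h3.separableSpace

/-- the index set -/
abbrev Om := (Σ k, N k) × ℕ

/-- the action of the group -/
def uE (γ : Γ) : Om ↪ Om :=
  ((Equiv.sigmaCongrRight fun k => γ.1 k).prodCongr (Equiv.refl ℕ)).toEmbedding

theorem cons_inj {v v' : X} {a b : Σ k, N k}
    (h : (⟨a.1 + 1, cons v a.2⟩ : Σ k, N k) = ⟨b.1 + 1, cons v' b.2⟩) : v = v' ∧ a = b := by
  obtain ⟨k, n⟩ := a
  obtain ⟨k', n'⟩ := b
  obtain ⟨h1, h2⟩ := Sigma.mk.inj h
  obtain rfl : k = k' := by simpa using h1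
  have := (consEquiv k).injective (a₁ := (v, n)) (a₂ := (v', n')) (eq_of_heq h2)
  cases this
  exact ⟨rfl, rfl⟩

/-- prepending a letter -/
def sE (v : X) : Om ↪ Om where
  toFun p := (⟨p.1.1 + 1, cons v p.1.2⟩, p.2)
  inj' _ _ h := Prod.ext (cons_inj (Prod.ext_iff.1 h).1).2 (Prod.ext_iff.1 h).2

open Classical in
/-- the unitary representation -/
noncomputable def uOp : Γ →* (L2 Om →L[ℂ] L2 Om) where
  toFun γ := Vop (uE γ)
  map_one' := ext_ee fun w => by rw [Vop_ee]; rfl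
  map_mul' a b := ext_ee fun w => by
    rw [ContinuousLinearMap.mul_apply, Vop_ee, Vop_ee, Vop_ee]; rfl

theorem alg : ∃ (A : Type) (_ : CStarAlgebra A) (u : Γ →* A) (s : X → A) (q : A),
    TopologicalSpace.SeparableSpace A ∧ Nontrivial A ∧ (∀ γ, star (u γ) * u γ = 1) ∧
    (∀ v, star (s v) * s v = 1) ∧ (∀ v v', v ≠ v' → star (s v) * s v' = 0) ∧ star q * q = 1 ∧
    (∀ γ, u γ * q = q) ∧ ∀ i v, u (gen i) * s v = s (actX i v) * u (sec i v) := by
  classical
  obtain ⟨enc, henc⟩ := exists_injective_nat Om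
  let qE : Om ↪ Om := ⟨fun w => (⟨0, 0⟩, enc w), fun a b h => henc (Prod.ext_iff.1 h).2⟩
  let G : Set (L2 Om →L[ℂ] L2 Om) :=
    (Set.range fun i => uOp (gen i)) ∪ (Set.range fun v => Vop (sE v)) ∪ {Vop qE}
  have hG : G.Countable :=
    ((Set.countable_range _).union (Set.countable_range _)).union (Set.countable_singleton _)
  let A := (StarAlgebra.adjoin ℂ G).topologicalClosure
  have hA : IsClosed (A : Set (L2 Om →L[ℂ] L2 Om)) :=
    StarSubalgebra.isClosed_topologicalClosure _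
  have hGA : ∀ x ∈ G, x ∈ A := fun x hx =>
    StarSubalgebra.le_topologicalClosure _ (StarAlgebra.subset_adjoin ℂ G hx)
  have hiso : ∀ γ, star (uOp γ) * uOp γ = 1 := fun γ => Vop_iso _
  have hu : ∀ γ, uOp γ ∈ A := by
    rintro ⟨x, hx⟩
    induction hx using Subgroup.closure_induction with
    | mem x h => obtain ⟨i, rfl⟩ := h; exact hGA _ (Or.inl (Or.inl ⟨i, rfl⟩))
    | one => exact (map_one uOp).symm ▸ one_mem A
    | mul a b ha hb iha ihb =>
      exact (map_mul uOp ⟨a, ha⟩ ⟨b, hb⟩).symm ▸ mul_mem iha ihb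
    | inv a ha ih =>
      have e : uOp (⟨a, ha⟩ : Γ)⁻¹ = star (uOp ⟨a, ha⟩) := by
        rw [← one_mul (uOp _⁻¹), ← hiso ⟨a, ha⟩, mul_assoc, ← map_mul, mul_inv_cancel, map_one,
          mul_one]
      exact e.symm ▸ star_mem ih
  have hnt : Nontrivial (L2 Om) := by
    refine ⟨ee (⟨0, 0⟩, 0), 0, fun h => ?_⟩
    have := inner_ee_ee (Ω := Om) (⟨0, 0⟩, 0) (⟨0, 0⟩, 0)
    rw [if_pos rfl, h, inner_zero_left] at this
    exact zero_ne_one this
  refine ⟨A, inferInstance, uOp.codRestrict A hu,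
    fun v => ⟨Vop (sE v), hGA _ (Or.inl (Or.inr ⟨v, rfl⟩))⟩, ⟨Vop qE, hGA _ (Or.inr rfl)⟩,
    sep_adjoin hG, inferInstance, fun γ => Subtype.ext (hiso γ), fun v => Subtype.ext (Vop_iso _),
    fun v v' h => Subtype.ext (Vop_orth fun a b e => h (cons_inj (Prod.ext_iff.1 e).1).1),
    Subtype.ext (Vop_iso _), fun γ => Subtype.ext (ext_ee fun w => ?_),
    fun i v => Subtype.ext (ext_ee fun w => ?_)⟩
  · change Vop (uE γ) (Vop qE (ee w)) = Vop qE (ee w)
    rw [Vop_ee, Vop_ee]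
    congr 1
    refine Prod.ext ?_ rfl
    change (⟨0, γ.1 0 0⟩ : Σ k, N k) = ⟨0, 0⟩
    rw [Subsingleton.elim (γ.1 0 0) 0]
  · change Vop (uE (gen i)) (Vop (sE v) (ee w)) = Vop (sE (actX i v)) (Vop (uE (sec i v)) (ee w))
    rw [Vop_ee, Vop_ee, Vop_ee, Vop_ee]
    congr 1
    refine Prod.ext ?_ rfl
    change (⟨w.1.1 + 1, gen0 i _ (cons v w.1.2)⟩ : Σ k, N k) =
      ⟨w.1.1 + 1, cons (actX i v) ((sec i v).1 _ w.1.2)⟩
    rw [act_cons]

end Vale.Agent.P083
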