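import Vale.Agent.P083.Gram

/-! Approximate factorisation through matrices for algebras generated by Cuntz isometries. -/

open InnerProductSpace Filter Topology

namespace Vale.Agent.P083

section CP

variable {H : Type*} [NormedAddCommGroup H] [InnerProductSpace ℂ H] [CompleteSpace H]

/-- the product along a word -/
noncomputable def sw (s : Bool → H →L[ℂ] H) (μ : List Bool) : H →L[ℂ] H := (μ.map s).prod

omit [CompleteSpace H] in
@[simp] theorem sw_nil (s : Bool → H →L[ℂ] H) : sw s [] = 1 := by simp [sw]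

omit [CompleteSpace H] in
theorem sw_cons (s : Bool → H →L[ℂ] H) (b : Bool) (μ : List Bool) :
    sw s (b :: μ) = s b * sw s μ := by simp [sw]

omit [CompleteSpace H] in
theorem sw_append (s : Bool → H →L[ℂ] H) (μ ν : List Bool) :
    sw s (μ ++ ν) = sw s μ * sw s ν := by simp [sw]

/-- Cuntz relations -/
structure Cz (s : Bool → H →L[ℂ] H) : Prop where
  h1 : ∀ i, star (s i) * s i = 1
  h2 : s false * star (s false) + s true * star (s true) = 1

variable {s : Bool → H →L[ℂ] H}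

theorem Cz.orth0 (h : Cz s) : star (s true) * s false = 0 := by
  have e : star (s false) * (s false * star (s false) + s true * star (s true)) * s false =
      star (s false) * 1 * s false := by rw [h.h2]
  have e2 : star (star (s true) * s false) * (star (s true) * s false) = 0 := by
    rw [mul_add, add_mul, ← mul_assoc, h.h1, mul_one, one_mul, h.h1] at e
    have := add_eq_left.1 e
    rw [star_mul, star_star, ← this]
    simp only [mul_assoc]
  exact (CStarRing.star_mul_self_eq_zero_iff _).1 e2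

theorem Cz.orth (h : Cz s) (i j : Bool) : star (s i) * s j = if i = j then 1 else 0 := by
  have h0 := h.orth0
  have h0' : star (s false) * s true = 0 := by
    have := congrArg star h0
    simpa using this
  cases i <;> cases j <;> simp [h.h1, h0, h0']

theorem Cz.sw_iso (h : Cz s) (μ : List Bool) : star (sw s μ) * sw s μ = 1 := by
  induction μ with
  | nil => simp
  | cons b μ ih =>
    rw [sw_cons, star_mul, mul_assoc, ← mul_assoc (star (s b)), h.h1, one_mul, ih]

theorem Cz.sw_orth (h : Cz s) : ∀ u v : List Bool, ¬ u <+: v → ¬ v <+: u →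
    star (sw s u) * sw s v = 0
  | [], v, h1, _ => absurd (List.nil_prefix) h1
  | _ :: _, [], _, h2 => absurd (List.nil_prefix) h2
  | b :: u, c :: v, h1, h2 => by
    rw [sw_cons, sw_cons, star_mul, mul_assoc, ← mul_assoc (star (s b)), h.orth]
    split_ifs with hbc
    · subst hbc
      rw [one_mul]
      exact h.sw_orth u v (fun hh => h1 (List.cons_prefix_cons.2 ⟨rfl, hh⟩))
        (fun hh => h2 (List.cons_prefix_cons.2 ⟨rfl, hh⟩))
    · simp

/-- the marker word -/
def tl (M : ℕ) : List Bool := List.replicate M false ++ [true]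

theorem not_prefix {M : ℕ} {μ ν : List Bool} (hν : ν.length ≤ M) (hne : μ ≠ ν) :
    ¬ μ ++ tl M <+: ν ++ tl M := by
  intro hp
  have hl := hp.length_le
  simp only [List.length_append] at hl
  rcases Nat.lt_or_ge μ.length ν.length with hlt | hge
  · have hi : μ.length + M < (μ ++ tl M).length := by simp [tl]
    have e := hp.getElem hi
    have e1 : (μ ++ tl M)[μ.length + M] = true := by
      rw [List.getElem_append_right (by omega)]
      simp [tl]
    have e2 : (ν ++ tl M)[μ.length + M]'(by simp [tl]; omega) = false := by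
      rw [List.getElem_append_right (by omega)]
      simp only [tl]
      rw [List.getElem_append_left (by simp; omega)]
      simp
    rw [e1, e2] at e
    exact absurd e (by simp)
  · have hle : μ.length = ν.length := by omega
    have := hp.eq_of_length (by simp [hle])
    exact hne (List.append_inj_left this hle)

theorem sum_words {M : Type*} [AddCommMonoid M] (n : ℕ) (f : List Bool → M) :
    ∑ μ : Fin (n + 1) → Bool, f (List.ofFn μ) =
      ∑ b : Bool, ∑ μ : Fin n → Bool, f (b :: List.ofFn μ) := by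
  rw [← (Fin.consEquiv fun _ => Bool).sum_comp, Fintype.sum_prod_type]
  simp [Fin.consEquiv, List.ofFn_succ]

theorem Cz.sum_proj (h : Cz s) (n : ℕ) :
    ∑ μ : Fin n → Bool, sw s (List.ofFn μ) * star (sw s (List.ofFn μ)) = 1 := by
  induction n with
  | zero => simp
  | succ n ih =>
    rw [sum_words n fun μ => sw s μ * star (sw s μ)]
    have : ∀ b, ∑ μ : Fin n → Bool, sw s (b :: List.ofFn μ) * star (sw s (b :: List.ofFn μ)) =
        s b * star (s b) := by
      intro b
      simp only [sw_cons, star_mul]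
      calc _ = s b * (∑ μ : Fin n → Bool, sw s (List.ofFn μ) * star (sw s (List.ofFn μ))) *
            star (s b) := by
            rw [Finset.mul_sum, Finset.sum_mul]
            simp only [mul_assoc]
        _ = _ := by rw [ih, mul_one]
    simp only [this]
    rw [Fintype.sum_bool, add_comm, h.h2]

theorem inner_mul (a : H →L[ℂ] H) (x y : H) : ⟪a x, y⟫_ℂ = ⟪x, star a y⟫_ℂ := by
  rw [ContinuousLinearMap.star_eq_adjoint, ContinuousLinearMap.adjoint_inner_right]

theorem Cz.inner_f (h : Cz s) {M : ℕ} {ζ : H} (hζ : ‖ζ‖ = 1) {μ ν : List Bool}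
    (hμ : μ.length ≤ M) (hν : ν.length ≤ M) :
    ⟪sw s μ (sw s (tl M) ζ), sw s ν (sw s (tl M) ζ)⟫_ℂ = if μ = ν then 1 else 0 := by
  rw [← ContinuousLinearMap.mul_apply, ← ContinuousLinearMap.mul_apply (sw s ν), ← sw_append,
    ← sw_append, inner_mul, ← ContinuousLinearMap.mul_apply]
  split_ifs with he
  · subst he
    rw [h.sw_iso]
    simp [hζ]
  · rw [h.sw_orth _ _ (not_prefix hν he) (not_prefix hμ (Ne.symm he))]
    simp

/-- the block of the approximating map -/
noncomputable def KK (s : Bool → H →L[ℂ] H) (ξ : H) (n n' : ℕ) (a : H →L[ℂ] H) : H →L[ℂ] H :=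
  ∑ μ : Fin n → Bool, ∑ ν : Fin n' → Bool,
    ⟪sw s (List.ofFn μ) ξ, a (sw s (List.ofFn ν) ξ)⟫_ℂ •
      (sw s (List.ofFn μ) * star (sw s (List.ofFn ν)))

theorem Cz.KK_left (h : Cz s) (ξ : H) (n n' : ℕ) (a : H →L[ℂ] H) (i : Bool) :
    KK s ξ (n + 1) n' (s i * a) = s i * KK s ξ n n' a := by
  unfold KK
  rw [sum_words n fun μ => ∑ ν : Fin n' → Bool,
    ⟪sw s μ ξ, (s i * a) (sw s (List.ofFn ν) ξ)⟫_ℂ • (sw s μ * star (sw s (List.ofFn ν)))]
  have e : ∀ (b : Bool) (μ : List Bool) (y : H), ⟪sw s (b :: μ) ξ, (s i * a) y⟫_ℂ =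
      if b = i then ⟪sw s μ ξ, a y⟫_ℂ else 0 := by
    intro b μ y
    rw [sw_cons, ContinuousLinearMap.mul_apply, inner_mul, ContinuousLinearMap.mul_apply,
      ← ContinuousLinearMap.mul_apply (star (s b)), h.orth]
    split_ifs <;> simp
  simp only [e]
  rw [Finset.sum_eq_single i]
  · simp only [if_true, Finset.mul_sum, sw_cons, mul_assoc, mul_smul_comm]
  · intro b _ hb
    simp [hb]
  · simp

theorem Cz.KK_right (h : Cz s) (ξ : H) (n n' : ℕ) (a : H →L[ℂ] H) (i : Bool) :
    KK s ξ n (n' + 1) (a * star (s i)) = KK s ξ n n' a * star (s i) := by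
  unfold KK
  rw [Finset.sum_mul]
  refine Finset.sum_congr rfl fun μ _ => ?_
  rw [sum_words n' fun ν => ⟪sw s (List.ofFn μ) ξ, (a * star (s i)) (sw s ν ξ)⟫_ℂ •
    (sw s (List.ofFn μ) * star (sw s ν))]
  have e : ∀ (b : Bool) (ν : List Bool) (y : H), ⟪y, (a * star (s i)) (sw s (b :: ν) ξ)⟫_ℂ =
      if b = i then ⟪y, a (sw s ν ξ)⟫_ℂ else 0 := by
    intro b ν y
    rw [sw_cons, ContinuousLinearMap.mul_apply, ContinuousLinearMap.mul_apply,
      ← ContinuousLinearMap.mul_apply (star (s i)), h.orth]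
    by_cases hb : b = i
    · simp [hb]
    · simp [hb, Ne.symm hb]
  simp only [e]
  rw [Finset.sum_eq_single i]
  · simp only [if_true, Finset.sum_mul, sw_cons, mul_assoc, smul_mul_assoc, star_mul]
  · intro b _ hb
    simp [hb]
  · simp

theorem Cz.KK_one (h : Cz s) {M : ℕ} {ζ : H} (hζ : ‖ζ‖ = 1) {n n' : ℕ} (hn : n ≤ M)
    (hn' : n' ≤ M) : KK s (sw s (tl M) ζ) n n' 1 = if n = n' then 1 else 0 := by
  unfold KK
  have e : ∀ (μ : Fin n → Bool) (ν : Fin n' → Bool),
      ⟪sw s (List.ofFn μ) (sw s (tl M) ζ), (1 : H →L[ℂ] H) (sw s (List.ofFn ν) (sw s (tl M) ζ))⟫_ℂ =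
      if List.ofFn μ = List.ofFn ν then 1 else 0 := fun μ ν =>
    h.inner_f hζ (by simpa using hn) (by simpa using hn')
  simp only [e]
  split_ifs with he
  · subst he
    rw [← h.sum_proj n]
    refine Finset.sum_congr rfl fun μ _ => ?_
    simp only [List.ofFn_inj]
    rw [Finset.sum_eq_single μ]
    · simp
    · intro ν _ hν
      simp [Ne.symm hν]
    · simp
  · refine Finset.sum_eq_zero fun μ _ => Finset.sum_eq_zero fun ν _ => ?_
    rw [if_neg, zero_smul]
    intro hh
    exact he (by simpa using congrArg List.length hh)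

theorem Cz.KK_mono (h : Cz s) (ξ : H) (n n' : ℕ) (α β : List Bool) (a : H →L[ℂ] H) :
    KK s ξ (n + α.length) (n' + β.length) (sw s α * a * star (sw s β)) =
      sw s α * KK s ξ n n' a * star (sw s β) := by
  induction β with
  | nil =>
    simp only [sw_nil, star_one, mul_one, List.length_nil, add_zero]
    induction α with
    | nil => simp
    | cons b α ih =>
      rw [sw_cons, List.length_cons, ← add_assoc, mul_assoc, h.KK_left, ih, mul_assoc]
  | cons b β ih =>
    rw [sw_cons, star_mul, List.length_cons, ← add_assoc, ← mul_assoc, h.KK_right, ih,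
      mul_assoc _ (star (sw s β))]

/-- the approximating map -/
noncomputable def Psi (s : Bool → H →L[ℂ] H) (ζ : H) (L : ℕ) (a : H →L[ℂ] H) : H →L[ℂ] H :=
  (L : ℂ)⁻¹ • ∑ t : Fin L, ∑ t' : Fin L, KK s (sw s (tl (2 * L)) ζ) (L + t) (L + t') a

theorem Psi_add (ζ : H) (L : ℕ) (a b : H →L[ℂ] H) :
    Psi s ζ L (a + b) = Psi s ζ L a + Psi s ζ L b := by
  simp only [Psi, KK, ContinuousLinearMap.add_apply, inner_add_right, add_smul,
    Finset.sum_add_distrib, smul_add]

theorem Psi_smul (ζ : H) (L : ℕ) (c : ℂ) (a : H →L[ℂ] H) :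
    Psi s ζ L (c • a) = c • Psi s ζ L a := by
  simp only [Psi, KK, ContinuousLinearMap.smul_apply, inner_smul_right, mul_smul,
    ← Finset.smul_sum]
  rw [smul_comm]

theorem count_bound (L p q : ℕ) :
    L - (p + q) ≤ ∑ t : Fin L, ∑ t' : Fin L, (if t + q = t' + p then 1 else 0 : ℕ) ∧
    ∑ t : Fin L, ∑ t' : Fin L, (if t + q = t' + p then 1 else 0 : ℕ) ≤ L := by
  have h1 : ∀ t : Fin L, ∑ t' : Fin L, (if t + q = t' + p then 1 else 0 : ℕ) ≤ 1 := by
    intro t
    rw [Finset.sum_boole]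
    simp only [Nat.cast_id]
    refine Finset.card_le_one.2 fun a ha b hb => ?_
    simp only [Finset.mem_filter, Finset.mem_univ, true_and] at ha hb
    exact Fin.ext (by omega)
  have h2 : ∀ t : Fin L, (if p ≤ t ∧ t + q < L then 1 else 0 : ℕ) ≤
      ∑ t' : Fin L, (if t + q = t' + p then 1 else 0 : ℕ) := by
    intro t
    split_ifs with ht
    · refine le_trans ?_ (Finset.single_le_sum (f := fun t' : Fin L =>
        (if t + q = t' + p then 1 else 0 : ℕ)) (fun _ _ => Nat.zero_le _)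
        (Finset.mem_univ ⟨t + q - p, by omega⟩))
      rw [if_pos (by simp only; omega)]
    · exact Nat.zero_le _
  constructor
  · refine le_trans ?_ (Finset.sum_le_sum fun t _ => h2 t)
    rw [Fin.sum_univ_eq_sum_range (fun t => (if p ≤ t ∧ t + q < L then 1 else 0 : ℕ)),
      Finset.sum_boole]
    simp only [Nat.cast_id]
    have : Finset.Ico p (L - q) ⊆ (Finset.range L).filter fun t => p ≤ t ∧ t + q < L := by
      intro t ht
      simp only [Finset.mem_Ico, Finset.mem_filter, Finset.mem_range] at ht ⊢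
      omega
    have := Finset.card_le_card this
    rw [Nat.card_Ico] at this
    omega
  · refine (Finset.sum_le_sum fun t _ => h1 t).trans ?_
    simp

theorem Cz.Psi_mono (h : Cz s) {ζ : H} (hζ : ‖ζ‖ = 1) (α β : List Bool) :
    Tendsto (fun L => Psi s ζ L (sw s α * star (sw s β))) atTop (𝓝 (sw s α * star (sw s β))) := by
  set p := α.length
  set q := β.length
  set c : ℕ → ℕ := fun L => ∑ t : Fin L, ∑ t' : Fin L, (if t + q = t' + p then 1 else 0 : ℕ)
  have e : ∀ L, p + q ≤ L → Psi s ζ L (sw s α * star (sw s β)) =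
      (((c L : ℝ) / L : ℝ) : ℂ) • (sw s α * star (sw s β)) := by
    intro L hL
    have e1 : ∀ t t' : Fin L, KK s (sw s (tl (2 * L)) ζ) (L + t) (L + t')
        (sw s α * star (sw s β)) =
        ((if t + q = t' + p then 1 else 0 : ℕ) : ℂ) • (sw s α * star (sw s β)) := by
      intro t t'
      have := h.KK_mono (sw s (tl (2 * L)) ζ) (L + t - p) (L + t' - q) α β 1
      rw [show L + t - p + α.length = L + t by omega, show L + t' - q + β.length = L + t' by omega,
        mul_one, h.KK_one hζ (by omega) (by omega)] at this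
      rw [this]
      by_cases ht : t + q = t' + p
      · rw [if_pos (by omega), if_pos ht]; simp
      · rw [if_neg (by omega), if_neg ht]; simp
    simp only [Psi, e1, ← Finset.sum_smul, smul_smul, c]
    congr 1
    rw [Complex.ofReal_div, Complex.ofReal_natCast, Complex.ofReal_natCast, div_eq_inv_mul]
    simp only [Nat.cast_sum]
  have hc : Tendsto (fun L => (c L : ℝ) / L) atTop (𝓝 1) := by
    have l1 : Tendsto (fun L : ℕ => 1 - ((p + q : ℕ) : ℝ) / L) atTop (𝓝 1) := by
      simpa using (tendsto_const_div_atTop_nhds_zero_nat ((p + q : ℕ) : ℝ)).const_sub 1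
    refine tendsto_of_tendsto_of_tendsto_of_le_of_le' l1 tendsto_const_nhds ?_ ?_
    · filter_upwards [eventually_ge_atTop (p + q + 1)] with L hL
      have hL0 : (0 : ℝ) < L := by exact_mod_cast (by omega : 0 < L)
      have : ((L - (p + q) : ℕ) : ℝ) ≤ c L := by exact_mod_cast (count_bound L p q).1
      rw [Nat.cast_sub (by omega)] at this
      rw [le_div_iff₀ hL0, sub_mul, div_mul_cancel₀ _ hL0.ne', one_mul]
      exact this
    · filter_upwards [eventually_ge_atTop 1] with L hL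
      have hL0 : (0 : ℝ) < L := by exact_mod_cast (by omega : 0 < L)
      rw [div_le_one hL0]
      exact_mod_cast (count_bound L p q).2
  have := ((Complex.continuous_ofReal.tendsto 1).comp hc).smul_const (sw s α * star (sw s β))
  simp only [Complex.ofReal_one, one_smul] at this
  refine this.congr' ?_
  filter_upwards [eventually_ge_atTop (p + q)] with L hL
  exact (e L hL).symm

/-- the span of the monomials -/
noncomputable def Mon (s : Bool → H →L[ℂ] H) : Submodule ℂ (H →L[ℂ] H) :=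
  Submodule.span ℂ (Set.range fun p : List Bool × List Bool => sw s p.1 * star (sw s p.2))

theorem mon_mem (α β : List Bool) : sw s α * star (sw s β) ∈ Mon s :=
  Submodule.subset_span ⟨(α, β), rfl⟩

theorem mon_mul {a : H →L[ℂ] H} (ha : ∀ α β, a * (sw s α * star (sw s β)) ∈ Mon s)
    {m : H →L[ℂ] H} (hm : m ∈ Mon s) : a * m ∈ Mon s := by
  induction hm using Submodule.span_induction with
  | mem x hx => obtain ⟨p, rfl⟩ := hx; exact ha _ _
  | zero => simp
  | add x y _ _ hx hy => rw [mul_add]; exact add_mem hx hy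
  | smul c x _ hx => rw [mul_smul_comm]; exact Submodule.smul_mem _ _ hx

theorem Cz.adjoin_le (h : Cz s) {a : H →L[ℂ] H} (ha : a ∈ StarAlgebra.adjoin ℂ (Set.range s)) :
    a ∈ Mon s := by
  have key : (∀ m ∈ Mon s, a * m ∈ Mon s) ∧ ∀ m ∈ Mon s, star a * m ∈ Mon s := by
    induction ha using StarAlgebra.adjoin_induction with
    | mem x hx =>
      obtain ⟨i, rfl⟩ := hx
      refine ⟨fun m hm => mon_mul (fun α β => ?_) hm, fun m hm => mon_mul (fun α β => ?_) hm⟩
      · rw [← mul_assoc, ← sw_cons]; exact mon_mem _ _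
      · cases α with
        | nil =>
          have := mon_mem (s := s) [] (β ++ [i])
          simpa [sw_append, sw_cons] using this
        | cons b α =>
          rw [sw_cons, mul_assoc, ← mul_assoc (star (s i)), h.orth]
          split_ifs
          · rw [one_mul]; exact mon_mem _ _
          · simp
    | algebraMap r =>
      refine ⟨fun m hm => ?_, fun m hm => ?_⟩
      · rw [← Algebra.smul_def]; exact Submodule.smul_mem _ _ hm
      · rw [← algebraMap_star_comm, ← Algebra.smul_def]; exact Submodule.smul_mem _ _ hm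
    | add x y _ _ hx hy =>
      refine ⟨fun m hm => ?_, fun m hm => ?_⟩
      · rw [add_mul]; exact add_mem (hx.1 m hm) (hy.1 m hm)
      · rw [star_add, add_mul]; exact add_mem (hx.2 m hm) (hy.2 m hm)
    | mul x y _ _ hx hy =>
      refine ⟨fun m hm => ?_, fun m hm => ?_⟩
      · rw [mul_assoc]; exact hx.1 _ (hy.1 m hm)
      · rw [star_mul, mul_assoc]; exact hy.2 _ (hx.2 m hm)
    | star x _ hx =>
      refine ⟨hx.2, ?_⟩
      rw [star_star]
      exact hx.1
  have := key.1 _ (mon_mem (s := s) [] [])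
  simpa using this

theorem Cz.Psi_mon (h : Cz s) {ζ : H} (hζ : ‖ζ‖ = 1) {a : H →L[ℂ] H} (ha : a ∈ Mon s) :
    Tendsto (fun L => Psi s ζ L a) atTop (𝓝 a) := by
  induction ha using Submodule.span_induction with
  | mem x hx => obtain ⟨p, rfl⟩ := hx; exact h.Psi_mono hζ _ _
  | zero =>
    have : ∀ L, Psi s ζ L 0 = 0 := fun L => by simpa using Psi_smul (s := s) ζ L 0 0
    simp [this]
  | add x y _ _ hx hy => simp only [Psi_add]; exact hx.add hy
  | smul c x _ hx => simp only [Psi_smul]; exact hx.const_smul c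

/-- the index set -/
abbrev JJ (L : ℕ) := Σ t : Fin L, (Fin (L + t) → Bool)

/-- the orthonormal family -/
noncomputable def ff (s : Bool → H →L[ℂ] H) (ζ : H) (L : ℕ) (j : JJ L) : H :=
  sw s (List.ofFn j.2) (sw s (tl (2 * L)) ζ)

/-- the matrix of an operator -/
noncomputable def xx (s : Bool → H →L[ℂ] H) (ζ : H) (L : ℕ) (a : H →L[ℂ] H) (j j' : JJ L) : ℂ :=
  ⟪ff s ζ L j, a (ff s ζ L j')⟫_ℂ

/-- the column -/
noncomputable def VV (s : Bool → H →L[ℂ] H) (L : ℕ) (j : JJ L) : H →L[ℂ] H :=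
  (((√L)⁻¹ : ℝ) : ℂ) • star (sw s (List.ofFn j.2))

theorem Cz.ff_on (h : Cz s) {ζ : H} (hζ : ‖ζ‖ = 1) (L : ℕ) : Orthonormal ℂ (ff s ζ L) := by
  classical
  rw [orthonormal_iff_ite]
  rintro ⟨t, μ⟩ ⟨t', ν⟩
  simp only [ff]
  rw [h.inner_f hζ (by simp; omega) (by simp; omega)]
  congr 1
  apply propext
  constructor
  · intro hh
    have : t = t' := Fin.ext (by simpa using congrArg List.length hh)
    subst this
    rw [List.ofFn_inj.1 hh]
  · intro hh
    cases hh
    rfl

theorem Cz.xx_contr (h : Cz s) {ζ : H} (hζ : ‖ζ‖ = 1) (L : ℕ) (a : H →L[ℂ] H) :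
    Contr ‖a‖ (xx s ζ L a) := by
  intro y y'
  have hn : ∀ y : JJ L → ℂ, ‖∑ j, y j • ff s ζ L j‖ ^ 2 = ∑ j, ‖y j‖ ^ 2 := by
    intro y
    have := (h.ff_on hζ L).inner_sum y y Finset.univ
    rw [inner_self_eq_norm_sq_to_K] at this
    have e2 : ∀ j, (starRingEnd ℂ) (y j) * y j = ((‖y j‖ ^ 2 : ℝ) : ℂ) := fun j => by
      rw [Complex.conj_mul']; push_cast; rfl
    simp only [e2] at this
    apply Complex.ofReal_injective
    push_cast at this ⊢
    exact this
  have e : ∑ j, ∑ j', xx s ζ L a j j' * (starRingEnd ℂ (y j) * y' j') =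
      ⟪∑ j, y j • ff s ζ L j, a (∑ j, y' j • ff s ζ L j)⟫_ℂ := by
    simp only [map_sum, map_smul, sum_inner, inner_sum, inner_smul_left, inner_smul_right, xx]
    rw [Finset.sum_comm]
    simp only [Finset.mul_sum]
    refine Finset.sum_congr rfl fun j _ => Finset.sum_congr rfl fun j' _ => ?_
    ring
  rw [e, ← hn, ← hn]
  set u := ∑ j, y j • ff s ζ L j
  set v := ∑ j, y' j • ff s ζ L j
  have h1 : (⟪u, a v⟫_ℂ).re ≤ ‖u‖ * (‖a‖ * ‖v‖) :=
    (Complex.re_le_norm _).trans ((norm_inner_le_norm _ _).trans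
      (mul_le_mul_of_nonneg_left (a.le_opNorm v) (norm_nonneg _)))
  nlinarith [mul_nonneg (norm_nonneg a) (sq_nonneg (‖u‖ - ‖v‖))]

theorem VV_inner (L : ℕ) (j j' : JJ L) (ξ η : H) : ⟪VV s L j ξ, VV s L j' η⟫_ℂ =
    (L : ℂ)⁻¹ * ⟪ξ, (sw s (List.ofFn j.2) * star (sw s (List.ofFn j'.2))) η⟫_ℂ := by
  simp only [VV, ContinuousLinearMap.smul_apply, inner_smul_left, inner_smul_right,
    Complex.conj_ofReal]
  rw [inner_mul, star_star, ← mul_assoc, ← Complex.ofReal_mul, ← mul_inv,
    Real.mul_self_sqrt (Nat.cast_nonneg _)]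
  push_cast
  rfl

theorem Psi_inner (ζ : H) (L : ℕ) (a : H →L[ℂ] H) (ξ η : H) : ⟪ξ, Psi s ζ L a η⟫_ℂ =
    ∑ j, ∑ j', xx s ζ L a j j' * ⟪VV s L j ξ, VV s L j' η⟫_ℂ := by
  simp only [VV_inner, Psi, KK, xx, ff, Fintype.sum_sigma, ContinuousLinearMap.smul_apply,
    ContinuousLinearMap.sum_apply, inner_smul_right, inner_sum, Finset.mul_sum]
  refine Finset.sum_congr rfl fun t _ => ?_
  rw [Finset.sum_comm]
  refine Finset.sum_congr rfl fun μ _ => Finset.sum_congr rfl fun t' _ =>
    Finset.sum_congr rfl fun ν _ => ?_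
  ring

theorem Cz.VV_sum (h : Cz s) (L : ℕ) (ξ : H) : ∑ j, ‖VV s L j ξ‖ ^ 2 ≤ ‖ξ‖ ^ 2 := by
  have e : ∑ j, ⟪VV s L j ξ, VV s L j ξ⟫_ℂ = (L : ℂ)⁻¹ * L * ⟪ξ, ξ⟫_ℂ := by
    simp only [VV_inner, Fintype.sum_sigma, ← Finset.mul_sum, ← inner_sum,
      ← ContinuousLinearMap.sum_apply, h.sum_proj]
    rw [Finset.sum_const, Finset.card_univ, Fintype.card_fin, ← Nat.cast_smul_eq_nsmul ℂ,
      ContinuousLinearMap.smul_apply, inner_smul_right, mul_assoc]
    rfl
  simp only [inner_self_eq_norm_sq_to_K] at e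
  have e2 : ∑ j, ‖VV s L j ξ‖ ^ 2 = (L : ℝ)⁻¹ * L * ‖ξ‖ ^ 2 := by
    apply Complex.ofReal_injective
    push_cast
    exact e
  rw [e2]
  refine mul_le_of_le_one_left (sq_nonneg _) ?_
  rw [← div_eq_inv_mul]
  exact div_self_le_one _

theorem Cz.Psi_norm (h : Cz s) {ζ : H} (hζ : ‖ζ‖ = 1) (L : ℕ) (a : H →L[ℂ] H) (ξ η : H) :
    (⟪ξ, Psi s ζ L a η⟫_ℂ).re ≤ ‖a‖ * (‖ξ‖ ^ 2 + ‖η‖ ^ 2) / 2 := by
  rw [Psi_inner]
  refine ((h.xx_contr hζ L a).hilbert _ _).trans ?_
  have := h.VV_sum L ξ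
  have := h.VV_sum L η
  gcongr

end CP

theorem cpap {H ι : Type*} [NormedAddCommGroup H] [InnerProductSpace ℂ H] [CompleteSpace H]
    [Nontrivial H] [Fintype ι] (s : Bool → H →L[ℂ] H) (h1 : ∀ i, star (s i) * s i = 1)
    (h2 : s false * star (s false) + s true * star (s true) = 1) (a : ι → H →L[ℂ] H)
    (ha : ∀ i, a i ∈ (StarAlgebra.adjoin ℂ (Set.range s)).topologicalClosure) {ε : ℝ}
    (hε : 0 < ε) : ∃ (J : Type) (_ : Fintype J) (x : ι → J → J → ℂ) (V : J → H →L[ℂ] H),
      (∀ i, Contr ‖a i‖ (x i)) ∧ (∀ ξ, ∑ j, ‖V j ξ‖ ^ 2 ≤ ‖ξ‖ ^ 2) ∧ ∀ i ξ η, (⟪ξ, a i η⟫_ℂ).re ≤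
        (∑ j, ∑ j', x i j j' * ⟪V j ξ, V j' η⟫_ℂ).re + ε * (‖ξ‖ ^ 2 + ‖η‖ ^ 2) := by
  have h : Cz s := ⟨h1, h2⟩
  obtain ⟨ζ, hζ⟩ := exists_norm_eq H zero_le_one
  have hb : ∀ i, ∃ b ∈ Mon s, ‖a i - b‖ < ε / 2 := by
    intro i
    have : a i ∈ closure ((StarAlgebra.adjoin ℂ (Set.range s) : StarSubalgebra ℂ _) : Set _) :=
      ha i
    obtain ⟨b, hb, hd⟩ := Metric.mem_closure_iff.1 this (ε / 2) (by positivity)
    exact ⟨b, h.adjoin_le hb, by rwa [← dist_eq_norm]⟩
  choose b hbm hb using hb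
  have hev : ∀ᶠ L in atTop, ∀ i, dist (Psi s ζ L (b i)) (b i) < ε := by
    rw [eventually_all]
    exact fun i => Metric.tendsto_nhds.1 (h.Psi_mon hζ (hbm i)) ε hε
  obtain ⟨L, hL⟩ := hev.exists
  refine ⟨JJ L, inferInstance, fun i => xx s ζ L (a i), VV s L, fun i => h.xx_contr hζ L _,
    h.VV_sum L, fun i ξ η => ?_⟩
  rw [← Psi_inner]
  have e : a i = Psi s ζ L (a i) + (Psi s ζ L (b i - a i) + ((a i - b i) +
      (b i - Psi s ζ L (b i)))) := by
    have : Psi s ζ L (b i) = Psi s ζ L (a i) + Psi s ζ L (b i - a i) := by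
      rw [← Psi_add]; congr 1; abel
    rw [this]; abel
  have k1 := h.Psi_norm hζ L (b i - a i) ξ η
  have k2 : ∀ c : H →L[ℂ] H, (⟪ξ, c η⟫_ℂ).re ≤ ‖c‖ * (‖ξ‖ ^ 2 + ‖η‖ ^ 2) / 2 := by
    intro c
    have h1 : (⟪ξ, c η⟫_ℂ).re ≤ ‖ξ‖ * (‖c‖ * ‖η‖) :=
      (Complex.re_le_norm _).trans ((norm_inner_le_norm _ _).trans
        (mul_le_mul_of_nonneg_left (c.le_opNorm η) (norm_nonneg _)))
    nlinarith [mul_nonneg (norm_nonneg c) (sq_nonneg (‖ξ‖ - ‖η‖))]
  have k3 := k2 (a i - b i)
  have k4 := k2 (b i - Psi s ζ L (b i))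
  have b1 : ‖b i - a i‖ ≤ ε / 2 := by rw [norm_sub_rev]; exact (hb i).le
  have b2 : ‖b i - Psi s ζ L (b i)‖ ≤ ε := by
    rw [norm_sub_rev, ← dist_eq_norm]; exact (hL i).le
  have b3 := (hb i).le
  have hP : 0 ≤ ‖ξ‖ ^ 2 + ‖η‖ ^ 2 := by positivity
  have e2 := congrArg (fun c : H →L[ℂ] H => (⟪ξ, c η⟫_ℂ).re) e
  simp only [ContinuousLinearMap.add_apply, inner_add_right, Complex.add_re] at e2
  rw [e2]
  nlinarith [mul_le_mul_of_nonneg_right b1 hP, mul_le_mul_of_nonneg_right b2 hP,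
    mul_le_mul_of_nonneg_right b3 hP]

end Vale.Agent.P083
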