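import Mathlib

/-! A self-similar tower of finite sets with a group of affine maps. -/

namespace Vale.Agent.P083

instance : Fact (Nat.Prime 149) := ⟨by norm_num⟩

/-- the field -/
abbrev F := ZMod 149
/-- the alphabet -/
abbrev X := F × F × F
/-- truncated polynomials -/
abbrev Y (k : ℕ) := Fin k → F
/-- level `k` -/
abbrev N (k : ℕ) := Y k × Y k × Y k

/-- multiplication by the variable -/
def sh (k : ℕ) : Y k →+ Y k where
  toFun y i := (Fin.cons 0 y : Fin (k + 1) → F) i.castSucc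
  map_zero' := by ext i; refine Fin.cases ?_ (fun _ => ?_) i.castSucc <;> simp
  map_add' y y' := by ext i; simp only [Pi.add_apply]; refine Fin.cases ?_ (fun _ => ?_) i.castSucc <;> simp

/-- the unit polynomial -/
def one (k : ℕ) : Y k := fun i => if i.val = 0 then 1 else 0
/-- the top monomial -/
def top (k : ℕ) : Y k := fun i => if i.val + 1 = k then 1 else 0
/-- the central translations -/
def zt (k : ℕ) (j : F) : N k := (j • top k, 0, 0)

/-- the four generators on each level -/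
def gen0 : Fin 4 → ∀ k, Equiv.Perm (N k) :=
  ![fun _ => ⟨fun n => (n.1 + n.2.1, n.2.1, n.2.2), fun n => (n.1 - n.2.1, n.2.1, n.2.2),
      fun n => by simp, fun n => by simp⟩,
    fun _ => ⟨fun n => (n.1, n.2.1 + n.2.2, n.2.2), fun n => (n.1, n.2.1 - n.2.2, n.2.2),
      fun n => by simp, fun n => by simp⟩,
    fun k => ⟨fun n => (n.1, n.2.1, n.2.2 + sh k n.1), fun n => (n.1, n.2.1, n.2.2 - sh k n.1),
      fun n => by simp, fun n => by simp⟩,
    fun k => ⟨fun n => (n.1, n.2.1, n.2.2 + one k), fun n => (n.1, n.2.1, n.2.2 - one k),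
      fun n => by simp, fun n => by simp⟩]

/-- the group -/
def Γ : Subgroup (∀ k, Equiv.Perm (N k)) := Subgroup.closure (Set.range gen0)

/-- the generators in the group -/
def gen (i : Fin 4) : Γ := ⟨gen0 i, Subgroup.subset_closure ⟨i, rfl⟩⟩

/-- prepending a letter -/
def cons {k : ℕ} (v : X) (n : N k) : N (k + 1) :=
  (Fin.cons v.1 n.1, Fin.cons v.2.1 n.2.1, Fin.cons v.2.2 n.2.2)

/-- the action on letters -/
def actX : Fin 4 → X → X :=
  ![fun v => (v.1 + v.2.1, v.2.1, v.2.2), fun v => (v.1, v.2.1 + v.2.2, v.2.2), fun v => v,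
    fun v => (v.1, v.2.1, v.2.2 + 1)]

/-- the sections -/
def sec : Fin 4 → X → Γ :=
  ![fun _ => gen 0, fun _ => gen 1, fun v => gen 3 ^ v.1.val * gen 2, fun _ => 1]

/-- Heisenberg pairs -/
def Heis {G : Type*} [Group G] (a b : G) : Prop :=
  Commute (a * b * a⁻¹ * b⁻¹) a ∧ Commute (a * b * a⁻¹ * b⁻¹) b

/-- the relations -/
structure Rel {G : Type*} [Group G] (g : Fin 4 → G) : Prop where
  pow : ∀ i, g i ^ 149 = 1
  h01 : Heis (g 0) (g 1)
  h12 : Heis (g 1) (g 2)
  h02 : Heis (g 0) (g 2)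
  h13 : Heis (g 1) (g 3)
  c03 : Commute (g 0) (g 3)
  c23 : Commute (g 2) (g 3)

/-- mean zero along the central translations -/
def MZ {k : ℕ} {E : Type*} [AddCommMonoid E] (T : N k → E) : Prop :=
  ∀ w, ∑ j : F, T (w + zt k j) = 0

/-- the matrix `x` has operator norm at most `c` -/
def Contr {J : Type*} [Fintype J] (c : ℝ) (x : J → J → ℂ) : Prop :=
  ∀ y y' : J → ℂ, (∑ j, ∑ j', x j j' * (starRingEnd ℂ (y j) * y' j')).re ≤
    c * (∑ j, ‖y j‖ ^ 2 + ∑ j, ‖y' j‖ ^ 2) / 2

end Vale.Agent.P083
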