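import Vale.Agent.P083.Defs

/-! Gram decomposition. -/

open InnerProductSpace

namespace Vale.Agent.P083

theorem gram {I H : Type*} [Fintype I] [NormedAddCommGroup H] [InnerProductSpace ℂ H]
    (y : I → H) : ∃ (n : ℕ) (b : Fin n → H), ∀ i j,
      ⟪y i, y j⟫_ℂ = ∑ l, starRingEnd ℂ ⟪b l, y i⟫_ℂ * ⟪b l, y j⟫_ℂ := by
  let W := Submodule.span ℂ (Set.range y)
  have : FiniteDimensional ℂ W := FiniteDimensional.span_of_finite ℂ (Set.finite_range y)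
  let b := stdOrthonormalBasis ℂ W
  refine ⟨_, fun l => b l, fun i j => ?_⟩
  have := b.sum_inner_mul_inner ⟨y i, Submodule.subset_span ⟨i, rfl⟩⟩
    ⟨y j, Submodule.subset_span ⟨j, rfl⟩⟩
  simp only [inner_conj_symm]
  exact this.symm

theorem gram_norm {I H : Type*} [NormedAddCommGroup H] [InnerProductSpace ℂ H]
    {y : I → H} {n : ℕ} {b : Fin n → H} (h : ∀ i j,
      ⟪y i, y j⟫_ℂ = ∑ l, starRingEnd ℂ ⟪b l, y i⟫_ℂ * ⟪b l, y j⟫_ℂ) (i : I) :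
    ‖y i‖ ^ 2 = ∑ l, ‖⟪b l, y i⟫_ℂ‖ ^ 2 := by
  have := h i i
  simp only [Complex.conj_mul', inner_self_eq_norm_sq_to_K] at this
  exact Complex.ofReal_injective (by push_cast; exact this)

theorem Contr.hilbert {J H : Type*} [Fintype J] [NormedAddCommGroup H] [InnerProductSpace ℂ H]
    {c : ℝ} {x : J → J → ℂ} (hx : Contr c x) (y y' : J → H) :
    (∑ j, ∑ j', x j j' * ⟪y j, y' j'⟫_ℂ).re ≤ c * (∑ j, ‖y j‖ ^ 2 + ∑ j, ‖y' j‖ ^ 2) / 2 := by
  obtain ⟨n, b, h⟩ := gram (Sum.elim y y')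
  have h1 := fun j j' => h (.inl j) (.inr j')
  have h2 := fun j => gram_norm h (.inl j)
  have h3 := fun j => gram_norm h (.inr j)
  simp only [Sum.elim_inl, Sum.elim_inr] at h1 h2 h3
  have h4 := Finset.sum_le_sum fun l (_ : l ∈ Finset.univ) =>
    hx (fun j => ⟪b l, y j⟫_ℂ) (fun j => ⟪b l, y' j⟫_ℂ)
  rw [← Complex.re_sum, ← Finset.sum_div, ← Finset.mul_sum, Finset.sum_add_distrib,
    Finset.sum_comm, Finset.sum_comm (f := fun l j => ‖⟪b l, y j⟫_ℂ‖ ^ 2),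
    Finset.sum_comm (f := fun l j => ‖⟪b l, y' j⟫_ℂ‖ ^ 2)] at h4
  simp only [h1, h2, h3, Finset.mul_sum]
  refine le_trans (le_of_eq ?_) h4
  exact congrArg _ (Finset.sum_congr rfl fun j _ => Finset.sum_comm)

end Vale.Agent.P083
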