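import Vale.Agent.P083.Defs

/-! Singular value decomposition and the Cauchy-Schwarz trick. -/

namespace Vale.Agent.P083

open Finset Matrix

theorem exists_svd {M J : Type*} [Fintype M] [Fintype J] [DecidableEq J] (T : M → J → ℂ) :
    ∃ Z : J → J → ℂ, (∀ j j', ∑ l, Z j l * starRingEnd ℂ (Z j' l) = if j = j' then 1 else 0) ∧
      (∀ l l', ∑ j, starRingEnd ℂ (Z j l) * Z j l' = if l = l' then 1 else 0) ∧
      ∀ l l', l ≠ l' → ∑ w, starRingEnd ℂ (∑ j, T w j * Z j l) * (∑ j, T w j * Z j l') = 0 := by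
  let Tm : Matrix M J ℂ := Matrix.of T
  have hA : (Tmᴴ * Tm).IsHermitian := isHermitian_conjTranspose_mul_self Tm
  let Z : Matrix J J ℂ := hA.eigenvectorUnitary
  have h1 : Z * star Z = 1 := (Unitary.mem_iff.1 hA.eigenvectorUnitary.2).2
  have h2 : star Z * Z = 1 := (Unitary.mem_iff.1 hA.eigenvectorUnitary.2).1
  have h3 := hA.conjStarAlgAut_star_eigenvectorUnitary
  rw [Unitary.conjStarAlgAut_star_apply] at h3
  have h4 : (Tm * Z)ᴴ * (Tm * Z) = diagonal (RCLike.ofReal ∘ hA.eigenvalues) := by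
    rw [← h3, conjTranspose_mul]
    simp only [Matrix.mul_assoc]
    rfl
  refine ⟨Z, fun j j' => ?_, fun l l' => ?_, fun l l' hl => ?_⟩
  · have := congrFun (congrFun h1 j) j'
    simpa [Matrix.mul_apply, Matrix.one_apply] using this
  · have := congrFun (congrFun h2 l) l'
    simpa [Matrix.mul_apply, Matrix.one_apply] using this
  · have := congrFun (congrFun h4 l) l'
    rw [diagonal_apply_ne _ hl, Matrix.mul_apply] at this
    exact this

theorem normsq_sum {M : Type*} [Fintype M] (v : M → ℂ) :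
    ((∑ w, ‖v w‖ ^ 2 : ℝ) : ℂ) = ∑ w, starRingEnd ℂ (v w) * v w := by
  push_cast
  simp only [Complex.conj_mul']

theorem unit_norm {J : Type*} [Fintype J] [DecidableEq J] {Z : J → J → ℂ}
    (hZ : ∀ j j', ∑ l, Z j l * starRingEnd ℂ (Z j' l) = if j = j' then 1 else 0) (v : J → ℂ) :
    ∑ l, ‖∑ j, v j * Z j l‖ ^ 2 = ∑ j, ‖v j‖ ^ 2 := by
  apply Complex.ofReal_injective
  rw [normsq_sum, normsq_sum]
  have e : ∀ l, starRingEnd ℂ (∑ j, v j * Z j l) * ∑ j, v j * Z j l =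
      ∑ j, ∑ j', starRingEnd ℂ (v j) * v j' * (Z j' l * starRingEnd ℂ (Z j l)) := by
    intro l
    simp only [map_sum, map_mul, sum_mul_sum]
    refine sum_congr rfl fun j _ => sum_congr rfl fun j' _ => ?_
    ring
  simp only [e]
  rw [sum_comm]
  refine sum_congr rfl fun j _ => ?_
  rw [sum_comm]
  simp only [← mul_sum, hZ]
  simp

theorem Contr.row {J : Type*} [Fintype J] {x : J → J → ℂ} (hx : Contr 1 x) (l : J) :
    ∑ l', ‖x l l'‖ ^ 2 ≤ 1 := by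
  classical
  have := hx (Pi.single l 1) fun l' => starRingEnd ℂ (x l l')
  have e1 : ∑ j, ∑ j', x j j' * (starRingEnd ℂ ((Pi.single l 1 : J → ℂ) j) *
      starRingEnd ℂ (x l j')) = ((∑ l', ‖x l l'‖ ^ 2 : ℝ) : ℂ) := by
    rw [normsq_sum, sum_eq_single l]
    · simp [mul_comm]
    · intro b _ hb; simp [hb]
    · simp
  have e2 : ∑ j, ‖(Pi.single l 1 : J → ℂ) j‖ ^ 2 = 1 := by
    rw [sum_eq_single l]
    · simp
    · intro b _ hb; simp [hb]
    · simp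
  rw [e1, e2, Complex.ofReal_re] at this
  simp only [Complex.norm_conj] at this
  linarith

theorem Contr.col {J : Type*} [Fintype J] {x : J → J → ℂ} (hx : Contr 1 x) (l' : J) :
    ∑ l, ‖x l l'‖ ^ 2 ≤ 1 := by
  classical
  have := hx (fun l => x l l') (Pi.single l' 1)
  have e1 : ∑ j, ∑ j', x j j' * (starRingEnd ℂ (x j l') * (Pi.single l' 1 : J → ℂ) j') =
      ((∑ l, ‖x l l'‖ ^ 2 : ℝ) : ℂ) := by
    rw [normsq_sum]
    refine sum_congr rfl fun j _ => ?_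
    rw [sum_eq_single l']
    · simp [mul_comm]
    · intro b _ hb; simp [hb]
    · simp
  have e2 : ∑ j, ‖(Pi.single l' 1 : J → ℂ) j‖ ^ 2 = 1 := by
    rw [sum_eq_single l']
    · simp
    · intro b _ hb; simp [hb]
    · simp
  rw [e1, e2, Complex.ofReal_re] at this
  linarith

theorem sum4 {M J : Type*} [Fintype M] [Fintype J] (F : M → M → J → J → ℂ) :
    ∑ j, ∑ j', ∑ l, ∑ l', F j j' l l' = ∑ l, ∑ l', ∑ j, ∑ j', F j j' l l' := by
  rw [sum_congr rfl fun j _ => sum_comm, sum_comm]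
  refine sum_congr rfl fun l _ => ?_
  rw [sum_congr rfl fun j _ => sum_comm, sum_comm]

theorem change_basis {J : Type*} [Fintype J] (Z x : J → J → ℂ) (u u' : J → ℂ) :
    ∑ j, ∑ j', x j j' * (starRingEnd ℂ (∑ l, u l * starRingEnd ℂ (Z j l)) *
      ∑ l, u' l * starRingEnd ℂ (Z j' l)) =
    ∑ l, ∑ l', (∑ j, ∑ j', x j j' * (Z j l * starRingEnd ℂ (Z j' l'))) *
      (starRingEnd ℂ (u l) * u' l') := by
  simp only [map_sum, map_mul, Complex.conj_conj, sum_mul_sum]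
  simp only [mul_sum]
  simp only [sum_mul]
  rw [sum4]
  refine sum_congr rfl fun _ _ => sum_congr rfl fun _ _ => sum_congr rfl fun _ _ =>
    sum_congr rfl fun _ _ => ?_
  ring

theorem kernel_inner {M J : Type*} [Fintype M] [Fintype J] (σ : J → ℝ) (y z : J → M → ℂ) :
    ∑ w, ∑ w', starRingEnd ℂ (∑ l, σ l * (z l w * starRingEnd ℂ (z l w'))) *
      (∑ l, σ l * (y l w * starRingEnd ℂ (y l w'))) =
    ((∑ l, ∑ l', σ l * σ l' * ‖∑ w, starRingEnd ℂ (z l w) * y l' w‖ ^ 2 : ℝ) : ℂ) := by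
  push_cast
  simp only [← Complex.mul_conj', map_sum, map_mul, Complex.conj_conj, Complex.conj_ofReal,
    sum_mul_sum]
  simp only [mul_sum]
  rw [sum4]
  refine sum_congr rfl fun _ _ => sum_congr rfl fun _ _ => sum_congr rfl fun _ _ =>
    sum_congr rfl fun _ _ => ?_
  ring

theorem haagerup {M J : Type*} [Fintype M] [Fintype J] (T : M → J → ℂ) :
    ∃ (σ : J → ℝ) (y : J → M → ℂ) (h : M → M → ℂ), (∀ l, 0 ≤ σ l) ∧
      (∀ l, ∃ c : J → ℂ, ∀ w, y l w = ∑ j, c j * T w j) ∧ (∀ l, ∑ w, ‖y l w‖ ^ 2 ≤ 1) ∧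
      (∀ w w', h w w' = ∑ l, σ l * (y l w * starRingEnd ℂ (y l w'))) ∧
      ∑ l, σ l ^ 2 = ∑ w, ∑ j, ‖T w j‖ ^ 2 ∧ ∑ w, ∑ w', ‖h w w'‖ ^ 2 = ∑ l, σ l ^ 2 ∧
      ∀ (g : Equiv.Perm M) (x : J → J → ℂ), Contr 1 x →
        (∑ w, ∑ j, ∑ j', x j j' * (starRingEnd ℂ (T (g w) j) * T w j')).re ≤
          ∑ l, σ l ^ 2 - (∑ w, ∑ w', ‖h (g w) (g w') - h w w'‖ ^ 2) / 4 := by
  classical
  obtain ⟨Z, hZ1, hZ2, hZ3⟩ := exists_svd T
  set C : J → M → ℂ := fun l w => ∑ j, T w j * Z j l with hC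
  set σ : J → ℝ := fun l => √(∑ w, ‖C l w‖ ^ 2) with hσ
  have hσ0 : ∀ l, 0 ≤ σ l := fun l => Real.sqrt_nonneg _
  have hσ2 : ∀ l, σ l ^ 2 = ∑ w, ‖C l w‖ ^ 2 := fun l => Real.sq_sqrt (by positivity)
  set y : J → M → ℂ := fun l w => ((σ l : ℂ))⁻¹ * C l w with hy
  have hCy : ∀ l w, C l w = σ l * y l w := by
    intro l w
    by_cases h0 : σ l = 0
    · have h1 := hσ2 l
      rw [h0, eq_comm, sq, mul_zero, sum_eq_zero_iff_of_nonneg fun _ _ => sq_nonneg _] at h1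
      simpa [h0] using h1 w (mem_univ _)
    · rw [hy]
      simp only
      rw [mul_inv_cancel_left₀ (by exact_mod_cast h0)]
  have hy2 : ∀ l, σ l ^ 2 * ∑ w, ‖y l w‖ ^ 2 = σ l ^ 2 := by
    intro l
    conv_rhs => rw [hσ2]
    simp only [hCy, norm_mul, mul_pow, Complex.norm_real, Real.norm_eq_abs, sq_abs, mul_sum]
  have hy1 : ∀ l, ∑ w, ‖y l w‖ ^ 2 ≤ 1 := by
    intro l
    by_cases h0 : σ l = 0
    · simp [hy, h0]
    · exact (mul_right_eq_self₀.1 (hy2 l)).resolve_right (pow_ne_zero 2 h0) |>.le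
  have hT : ∀ w j, T w j = ∑ l, C l w * starRingEnd ℂ (Z j l) := by
    intro w j
    simp only [hC, sum_mul, mul_assoc]
    rw [sum_comm]
    simp only [← mul_sum, hZ1]
    simp
  set h : M → M → ℂ := fun w w' => ∑ l, σ l * (y l w * starRingEnd ℂ (y l w')) with hh
  have hn : ∑ w, ∑ w', ‖h w w'‖ ^ 2 = ∑ l, σ l ^ 2 := by
    have e := kernel_inner σ y y
    simp only [← normsq_sum] at e
    rw [← Complex.ofReal_sum] at e
    rw [Complex.ofReal_injective e]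
    refine sum_congr rfl fun l _ => ?_
    rw [sum_eq_single l]
    · rw [← normsq_sum, Complex.norm_real, Real.norm_eq_abs, sq_abs, ← sq, sq (∑ w, _),
        ← mul_assoc, hy2, hy2]
    · intro l' _ hl
      have e1 := hZ3 l l' (Ne.symm hl)
      change ∑ w, starRingEnd ℂ (C l w) * C l' w = 0 at e1
      have e2 : ((σ l * σ l' : ℝ) : ℂ) * ∑ w, starRingEnd ℂ (y l w) * y l' w = 0 := by
        rw [← e1, mul_sum]
        refine sum_congr rfl fun w _ => ?_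
        rw [hCy l, hCy l', map_mul _ (σ l : ℂ), Complex.conj_ofReal]
        push_cast
        ring
      rcases mul_eq_zero.1 e2 with e3 | e3
      · rw [Complex.ofReal_eq_zero.1 e3, zero_mul]
      · simp [e3]
    · simp
  refine ⟨σ, y, h, hσ0, fun l => ⟨fun j => ((σ l : ℂ))⁻¹ * Z j l, fun w => ?_⟩, hy1,
    fun _ _ => rfl, ?_, hn, fun g x hx => ?_⟩
  · simp only [hy, hC, mul_sum]
    exact sum_congr rfl fun j _ => by ring
  · simp only [hσ2]
    rw [sum_comm]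
    exact sum_congr rfl fun w _ => unit_norm hZ1 _
  set x' : J → J → ℂ := fun l l' => ∑ j, ∑ j', x j j' * (Z j l * starRingEnd ℂ (Z j' l'))
  have hx' : Contr 1 x' := by
    intro u u'
    have hZ2' : ∀ l l', ∑ j, starRingEnd ℂ (Z j l) * starRingEnd ℂ (starRingEnd ℂ (Z j l')) =
        if l = l' then 1 else 0 := by simpa only [Complex.conj_conj] using hZ2
    rw [← change_basis, ← unit_norm (Z := fun l j => starRingEnd ℂ (Z j l)) hZ2' u,
      ← unit_norm (Z := fun l j => starRingEnd ℂ (Z j l)) hZ2' u']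
    exact hx _ _
  set β : J → J → ℂ := fun l l' => ∑ w, starRingEnd ℂ (y l (g w)) * y l' w
  have e1 : ∑ w, ∑ j, ∑ j', x j j' * (starRingEnd ℂ (T (g w) j) * T w j') =
      ∑ l, ∑ l', ((σ l * σ l' : ℝ) : ℂ) * (x' l l' * β l l') := by
    simp only [hT, change_basis]
    rw [sum_comm]
    refine sum_congr rfl fun l _ => ?_
    rw [sum_comm]
    refine sum_congr rfl fun l' _ => ?_
    change ∑ w, x' l l' * _ = _ * (_ * ∑ w, _)
    rw [mul_sum, mul_sum]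
    refine sum_congr rfl fun w _ => ?_
    rw [hCy l, hCy l', map_mul _ (σ l : ℂ), Complex.conj_ofReal]
    push_cast
    ring
  have e2 : ∑ w, ∑ w', ‖h (g w) (g w') - h w w'‖ ^ 2 =
      2 * ∑ l, σ l ^ 2 - 2 * ∑ l, ∑ l', σ l * σ l' * ‖β l l'‖ ^ 2 := by
    have e := congrArg Complex.re (kernel_inner σ y fun l w => y l (g w))
    rw [Complex.ofReal_re] at e
    have e3 : ∀ a b : ℂ, ‖a - b‖ ^ 2 = ‖a‖ ^ 2 + ‖b‖ ^ 2 - 2 * (starRingEnd ℂ a * b).re := by
      intro a b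
      simp only [Complex.sq_norm, Complex.normSq_apply, Complex.sub_re, Complex.sub_im,
        Complex.mul_re, Complex.conj_re, Complex.conj_im]
      ring
    have e4 : ∑ w, ∑ w', ‖h (g w) (g w')‖ ^ 2 = ∑ w, ∑ w', ‖h w w'‖ ^ 2 := by
      rw [← Equiv.sum_comp g fun w => ∑ w', ‖h w w'‖ ^ 2]
      exact sum_congr rfl fun w _ => Equiv.sum_comp g fun w' => ‖h (g w) w'‖ ^ 2
    simp only [e3, sum_sub_distrib, sum_add_distrib, ← mul_sum, e4, hn]
    rw [← e]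
    simp only [Complex.re_sum]
    ring
  have e5 : ∑ l, ∑ l', σ l * σ l' * ‖x' l l'‖ ^ 2 ≤ ∑ l, σ l ^ 2 := by
    have a1 : ∑ l, ∑ l', σ l ^ 2 * ‖x' l l'‖ ^ 2 ≤ ∑ l, σ l ^ 2 := by
      refine sum_le_sum fun l _ => ?_
      rw [← mul_sum]
      exact mul_le_of_le_one_right (sq_nonneg _) (hx'.row l)
    have a2 : ∑ l, ∑ l', σ l' ^ 2 * ‖x' l l'‖ ^ 2 ≤ ∑ l, σ l ^ 2 := by
      rw [sum_comm]
      refine sum_le_sum fun l _ => ?_
      rw [← mul_sum]
      exact mul_le_of_le_one_right (sq_nonneg _) (hx'.col l)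
    have a3 : 2 * ∑ l, ∑ l', σ l * σ l' * ‖x' l l'‖ ^ 2 ≤
        ∑ l, ∑ l', σ l ^ 2 * ‖x' l l'‖ ^ 2 + ∑ l, ∑ l', σ l' ^ 2 * ‖x' l l'‖ ^ 2 := by
      simp only [mul_sum, ← sum_add_distrib]
      refine sum_le_sum fun l _ => sum_le_sum fun l' _ => ?_
      nlinarith [mul_nonneg (sq_nonneg (σ l - σ l')) (sq_nonneg ‖x' l l'‖)]
    linarith
  have e6 : 2 * (∑ l, ∑ l', ((σ l * σ l' : ℝ) : ℂ) * (x' l l' * β l l')).re ≤
      ∑ l, ∑ l', σ l * σ l' * ‖x' l l'‖ ^ 2 + ∑ l, ∑ l', σ l * σ l' * ‖β l l'‖ ^ 2 := by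
    simp only [Complex.re_sum, mul_sum, ← sum_add_distrib, Complex.re_ofReal_mul]
    refine sum_le_sum fun l _ => sum_le_sum fun l' _ => ?_
    have a1 : (x' l l' * β l l').re ≤ ‖x' l l'‖ * ‖β l l'‖ :=
      (Complex.re_le_norm _).trans (norm_mul_le _ _)
    have a2 := mul_nonneg (hσ0 l) (hσ0 l')
    nlinarith [mul_nonneg a2 (sq_nonneg (‖x' l l'‖ - ‖β l l'‖)), mul_le_mul_of_nonneg_left a1 a2]
  rw [e1, e2]
  linarith

end Vale.Agent.P083
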