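import Vale.Agent.P083.Defs

/-! Invariant kernels are spread out. -/

namespace Vale.Agent.P083

open Finset

section Fourier

variable {A : Type*} [AddCommGroup A] [Fintype A] [DecidableEq A]

/-- Fourier coefficients -/
noncomputable def ft (f : A → ℂ) (χ : AddChar A ℂ) : ℂ := ∑ n, f n * starRingEnd ℂ (χ n)

theorem ft_parseval (f : A → ℂ) :
    ∑ χ : AddChar A ℂ, ‖ft f χ‖ ^ 2 = Fintype.card A * ∑ n, ‖f n‖ ^ 2 := by
  apply Complex.ofReal_injective
  push_cast
  simp only [← Complex.mul_conj', ft, map_sum, map_mul, Complex.conj_conj, sum_mul_sum]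
  have e : ∀ (χ : AddChar A ℂ) (a b : A), f a * starRingEnd ℂ (χ a) * (starRingEnd ℂ (f b) * χ b) =
      f a * starRingEnd ℂ (f b) * χ (b - a) := by
    intro χ a b
    rw [sub_eq_add_neg, AddChar.map_add_eq_mul, AddChar.map_neg_eq_conj]; ring
  simp only [e]
  rw [sum_comm, mul_sum]
  refine sum_congr rfl fun a _ => ?_
  rw [sum_comm]
  simp only [← mul_sum, AddChar.sum_apply_eq_ite, sub_eq_zero]
  rw [sum_eq_single a]
  · simp [mul_comm]
  · intro b _ hb; simp [hb]
  · simp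

theorem ft_conv (f y : A → ℂ) :
    ∑ χ : AddChar A ℂ, starRingEnd ℂ (ft f χ) * (ft y χ * starRingEnd ℂ (ft y χ)) =
      Fintype.card A * ∑ w, ∑ w', starRingEnd ℂ (f (w - w')) * (y w * starRingEnd ℂ (y w')) := by
  have e : ∀ χ : AddChar A ℂ, starRingEnd ℂ (ft f χ) * (ft y χ * starRingEnd ℂ (ft y χ)) =
      ∑ w, ∑ w', ∑ n, starRingEnd ℂ (f n) * (y w * starRingEnd ℂ (y w')) * χ (n - (w - w')) := by
    intro χ
    simp only [ft, map_sum, map_mul, Complex.conj_conj]
    rw [sum_mul_sum, mul_sum]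
    refine sum_congr rfl fun w _ => ?_
    rw [mul_sum]
    refine sum_congr rfl fun w' _ => ?_
    rw [sum_mul]
    refine sum_congr rfl fun n _ => ?_
    rw [show n - (w - w') = n + -w + w' by abel, AddChar.map_add_eq_mul, AddChar.map_add_eq_mul,
      AddChar.map_neg_eq_conj]
    ring
  simp only [e]
  rw [sum_comm, mul_sum]
  refine sum_congr rfl fun w _ => ?_
  rw [sum_comm, mul_sum]
  refine sum_congr rfl fun w' _ => ?_
  rw [sum_comm]
  simp only [← mul_sum, AddChar.sum_apply_eq_ite, sub_eq_zero]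
  rw [sum_eq_single (w - w')]
  · simp [mul_comm]
  · intro b _ hb; simp [hb]
  · simp

end Fourier

theorem sh_apply (k : ℕ) (y : Y k) (j : Fin k) :
    sh k y j = if h : 0 < j.val then y ⟨j.val - 1, by omega⟩ else 0 := by
  obtain ⟨j, hj⟩ := j
  cases j with
  | zero => rfl
  | succ j => rfl

theorem sh_iter (k i : ℕ) (y : Y k) (j : Fin k) :
    (sh k)^[i] y j = if h : i ≤ j.val then y ⟨j.val - i, by omega⟩ else 0 := by
  induction i generalizing j with
  | zero => simp
  | succ i ih =>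
    rw [Function.iterate_succ_apply', sh_apply]
    by_cases h : 0 < j.val
    · rw [dif_pos h, ih]
      by_cases h2 : i + 1 ≤ j.val
      · rw [dif_pos (by simp only; omega), dif_pos h2]
        congr 2
        simp only
        omega
      · rw [dif_neg (by simp only; omega), dif_neg h2]
    · rw [dif_neg h, dif_neg (by omega)]

theorem gen0_zero (k : ℕ) (n : N k) : gen0 0 k n = (n.1 + n.2.1, n.2.1, n.2.2) := rfl
theorem gen0_one (k : ℕ) (n : N k) : gen0 1 k n = (n.1, n.2.1 + n.2.2, n.2.2) := rfl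
theorem gen0_two (k : ℕ) (n : N k) : gen0 2 k n = (n.1, n.2.1, n.2.2 + sh k n.1) := rfl
theorem gen0_three (k : ℕ) (n : N k) : gen0 3 k n = (n.1, n.2.1, n.2.2 + one k) := rfl

theorem gen_add (k : ℕ) (i : Fin 4) (hi : i ≠ 3) (a b : N k) :
    gen0 i k (a + b) = gen0 i k a + gen0 i k b := by
  have : i = 0 ∨ i = 1 ∨ i = 2 := by omega
  rcases this with rfl | rfl | rfl
  · simp [gen0_zero, Prod.ext_iff]; abel
  · simp [gen0_one, Prod.ext_iff]; abel
  · simp [gen0_two, Prod.ext_iff]; abel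

/-- the linear generators -/
def lin (k : ℕ) (i : Fin 4) (hi : i ≠ 3) : N k →+ N k :=
  AddMonoidHom.mk' (gen0 i k) (gen_add k i hi)

/-- closed under the linear generators -/
def Cl {k : ℕ} (K : AddSubgroup (N k)) : Prop := ∀ i : Fin 4, i ≠ 3 → ∀ n ∈ K, gen0 i k n ∈ K

theorem Cl.s1 {k : ℕ} {K : AddSubgroup (N k)} (h : Cl K) {c : Y k} (hc : (0, 0, c) ∈ K) :
    ((0, c, 0) : N k) ∈ K := by
  convert K.sub_mem (h 1 (by decide) _ hc) hc using 1
  simp [gen0_one, Prod.ext_iff]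

theorem Cl.s0 {k : ℕ} {K : AddSubgroup (N k)} (h : Cl K) {c : Y k} (hc : (0, c, 0) ∈ K) :
    ((c, 0, 0) : N k) ∈ K := by
  convert K.sub_mem (h 0 (by decide) _ hc) hc using 1
  simp [gen0_zero, Prod.ext_iff]

theorem Cl.s2 {k : ℕ} {K : AddSubgroup (N k)} (h : Cl K) {c : Y k} (hc : (c, 0, 0) ∈ K) :
    ((0, 0, sh k c) : N k) ∈ K := by
  convert K.sub_mem (h 2 (by decide) _ hc) hc using 1
  simp [gen0_two, Prod.ext_iff]

theorem smul_mem_of {E : Type*} [AddCommGroup E] [Module F E] (K : AddSubgroup E) (c : F) {n : E}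
    (hn : n ∈ K) : c • n ∈ K := by
  rw [← ZMod.natCast_zmod_val c, Nat.cast_smul_eq_nsmul]
  exact K.nsmul_mem hn _

theorem Cl.eq_top {k : ℕ} {K : AddSubgroup (N k)} (h : Cl K) (h1 : (0, 0, one k) ∈ K) (n : N k) :
    n ∈ K := by
  have h2 : ∀ i, ((0, 0, (sh k)^[i] (one k)) : N k) ∈ K := by
    intro i
    induction i with
    | zero => exact h1
    | succ i ih => rw [Function.iterate_succ_apply']; exact h.s2 (h.s0 (h.s1 ih))
  have h3 : ∀ c : Y k, ((0, 0, c) : N k) ∈ K := by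
    intro c
    have e : ((0, 0, c) : N k) = ∑ i : Fin k, c i • ((0, 0, (sh k)^[i] (one k)) : N k) := by
      refine Prod.ext (by simp [Prod.fst_sum]) (Prod.ext (by simp [Prod.fst_sum, Prod.snd_sum]) ?_)
      simp only [Prod.snd_sum, Prod.smul_snd]
      ext j
      simp only [Finset.sum_apply, Pi.smul_apply, sh_iter, one, smul_eq_mul]
      rw [sum_eq_single j]
      · simp
      · intro i _ hi
        have : i.val ≠ j.val := fun hh => hi (Fin.ext hh)
        split_ifs <;> first | omega | simp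
      · simp
    rw [e]
    exact K.sum_mem fun i _ => smul_mem_of K _ (h2 i)
  obtain ⟨a, b, c⟩ := n
  have := K.add_mem (K.add_mem (h.s0 (h.s1 (h3 a))) (h.s1 (h3 b))) (h3 c)
  simpa using this

theorem Cl.top_mem {k : ℕ} {K : AddSubgroup (N (k + 1))} (h : Cl K) {y : Y (k + 1)} (hy0 : y ≠ 0)
    (hy : (y, 0, 0) ∈ K) : zt (k + 1) 1 ∈ K := by
  have h2 : ∀ i, (((sh (k + 1))^[i] y, 0, 0) : N (k + 1)) ∈ K := by
    intro i
    induction i with
    | zero => exact hy
    | succ i ih => rw [Function.iterate_succ_apply']; exact h.s0 (h.s1 (h.s2 ih))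
  classical
  have hne : (univ.filter fun i => y i ≠ 0).Nonempty := by
    by_contra hh
    apply hy0
    ext i
    by_contra hi
    exact hh ⟨i, by simpa using hi⟩
  set i := (univ.filter fun i => y i ≠ 0).min' hne
  have hi : y i ≠ 0 := by simpa using (univ.filter fun i => y i ≠ 0).min'_mem hne
  have hlt : ∀ j, j < i → y j = 0 := by
    intro j hj
    by_contra hh
    exact absurd ((univ.filter fun i => y i ≠ 0).min'_le j (by simpa using hh)) (not_le.2 hj)
  have e : zt (k + 1) 1 = (y i)⁻¹ • (((sh (k + 1))^[k - i] y, 0, 0) : N (k + 1)) := by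
    refine Prod.ext ?_ (by simp [zt])
    ext j
    simp only [zt, one_smul, top, Prod.smul_fst, Pi.smul_apply, sh_iter, smul_eq_mul]
    have := i.2
    have := j.2
    split_ifs with h1 h2 h2
    · rw [show (⟨j.val - (k - i.val), by omega⟩ : Fin (k + 1)) = i from Fin.ext (by simp only; omega),
        inv_mul_cancel₀ hi]
    · omega
    · rw [hlt ⟨j.val - (k - i.val), by omega⟩ (by rw [Fin.lt_def]; simp only; omega), mul_zero]
    · simp
  rw [e]
  exact smul_mem_of K _ (h2 _)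

theorem orbit_count (k : ℕ) (f : N (k + 1) → ℂ) (hf : ∀ i, i ≠ 3 → ∀ n, f (gen0 i (k + 1) n) = f n)
    (χ : AddChar (N (k + 1)) ℂ) (hχ : χ (zt (k + 1) 1) ≠ 1) :
    (k + 1) * ‖ft f χ‖ ^ 2 ≤ ∑ χ' : AddChar (N (k + 1)) ℂ, ‖ft f χ'‖ ^ 2 := by
  classical
  set Ξ := univ.filter fun χ' => ft f χ' = ft f χ with hΞ
  have hcl : ∀ i (hi : i ≠ 3), ∀ χ' ∈ Ξ, χ'.compAddMonoidHom (lin (k + 1) i hi) ∈ Ξ := by
    intro i hi χ' h'
    simp only [hΞ, mem_filter, mem_univ, true_and] at h' ⊢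
    rw [← h']
    unfold ft
    rw [← Equiv.sum_comp (gen0 i (k + 1)) (fun n => f n * starRingEnd ℂ (χ' n))]
    refine sum_congr rfl fun n _ => ?_
    rw [hf i hi]
    rfl
  let K : AddSubgroup (N (k + 1)) :=
    { carrier := {n | ∀ χ' ∈ Ξ, χ' n = 1}
      zero_mem' := fun χ' _ => χ'.map_zero_eq_one
      add_mem' := fun {a b} ha hb χ' h' => by
        rw [AddChar.map_add_eq_mul, ha χ' h', hb χ' h', mul_one]
      neg_mem' := fun {a} ha χ' h' => by rw [AddChar.map_neg_eq_conj, ha χ' h', map_one] }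
  have hK : Cl K := fun i hi n hn χ' h' => hn _ (hcl i hi χ' h')
  have hcard : k + 1 ≤ Ξ.card := by
    let R := (Polynomial.nthRoots 149 (1 : ℂ)).toFinset
    have hR : R.card ≤ 149 := (Multiset.toFinset_card_le _).trans (Polynomial.card_nthRoots _ _)
    let Φ : Y (k + 1) → Ξ → ℂ := fun y χ' => χ'.1 (y, 0, 0)
    have h1 : (univ : Finset (Y (k + 1))).card ≤ (Fintype.piFinset fun _ : Ξ => R).card := by
      refine card_le_card_of_injOn Φ (fun y _ => ?_) fun y _ y' _ hyy => ?_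
      · simp only [Fintype.coe_piFinset, Set.mem_pi, Set.mem_univ, forall_const, mem_coe, R,
          Multiset.mem_toFinset]
        intro χ'
        rw [Polynomial.mem_nthRoots (by norm_num), ← AddChar.map_nsmul_eq_pow,
          ← Nat.cast_smul_eq_nsmul F, show ((149 : ℕ) : F) = 0 from rfl, zero_smul,
          AddChar.map_zero_eq_one]
      · by_contra hne
        have hm : ((y - y', 0, 0) : N (k + 1)) ∈ K := by
          intro χ' h'
          have e := congrFun hyy ⟨χ', h'⟩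
          simp only [Φ] at e
          have e2 : ((y - y', 0, 0) : N (k + 1)) = (y, 0, 0) + -(y', 0, 0) := by
            simp [sub_eq_add_neg]
          rw [e2, AddChar.map_add_eq_mul, e, ← AddChar.map_add_eq_mul, add_neg_cancel,
            AddChar.map_zero_eq_one]
        exact hχ (hK.top_mem (sub_ne_zero.2 hne) hm χ (by simp [hΞ]))
    rw [card_univ, Fintype.card_piFinset, prod_const, card_univ, Fintype.card_coe,
      Fintype.card_fun, ZMod.card, Fintype.card_fin] at h1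
    exact (Nat.pow_le_pow_iff_right (by norm_num)).1 (h1.trans (Nat.pow_le_pow_left hR _))
  calc ((k : ℝ) + 1) * ‖ft f χ‖ ^ 2 ≤ Ξ.card * ‖ft f χ‖ ^ 2 := by
        gcongr; exact_mod_cast hcard
    _ = ∑ χ' ∈ Ξ, ‖ft f χ'‖ ^ 2 := by
        rw [sum_congr rfl fun χ' h' => by rw [(mem_filter.1 h').2], sum_const, nsmul_eq_mul]
    _ ≤ _ := sum_le_sum_of_subset_of_nonneg (subset_univ _) fun _ _ _ => by positivity

theorem ft_eq_zero {k : ℕ} {y : N k → ℂ} (hy : MZ y) (χ : AddChar (N k) ℂ)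
    (hχ : χ (zt k 1) = 1) : ft y χ = 0 := by
  have h1 : ∀ j : F, χ (zt k j) = 1 := by
    intro j
    have : zt k j = j.val • zt k 1 := by
      rw [← Nat.cast_smul_eq_nsmul F, ZMod.natCast_zmod_val]
      simp [zt]
    rw [this, AddChar.map_nsmul_eq_pow, hχ, one_pow]
  have h2 : ∀ j : F, ft y χ = ∑ w, y (w + zt k j) * starRingEnd ℂ (χ w) := by
    intro j
    unfold ft
    rw [← Equiv.sum_comp (Equiv.addRight (zt k j))]
    simp [AddChar.map_add_eq_mul, h1]
  have h3 : ∑ j : F, ft y χ = 0 := by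
    rw [sum_congr rfl fun j _ => h2 j, sum_comm]
    simp only [← sum_mul, hy _, zero_mul, sum_const_zero]
  simpa using h3

theorem spread (k : ℕ) (S : N (k + 1) → N (k + 1) → ℂ)
    (hS : ∀ i w w', S (gen0 i (k + 1) w) (gen0 i (k + 1) w') = S w w') (y : N (k + 1) → ℂ)
    (hy : MZ y) (hy1 : ∑ w, ‖y w‖ ^ 2 ≤ 1) :
    (k + 1) * ‖∑ w, ∑ w', starRingEnd ℂ (S w w') * (y w * starRingEnd ℂ (y w'))‖ ^ 2 ≤
      ∑ w, ∑ w', ‖S w w'‖ ^ 2 := by
  classical
  let M : AddSubgroup (N (k + 1)) :=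
    { carrier := {n | ∀ w w', S (w + n) (w' + n) = S w w'}
      zero_mem' := fun w w' => by simp
      add_mem' := fun {a b} ha hb w w' => by rw [← add_assoc, ← add_assoc, hb, ha]
      neg_mem' := fun {a} ha w w' => by rw [← ha]; simp }
  have hM : Cl M := by
    intro i hi n hn w w'
    obtain ⟨u, rfl⟩ := (gen0 i (k + 1)).surjective w
    obtain ⟨u', rfl⟩ := (gen0 i (k + 1)).surjective w'
    rw [← gen_add _ _ hi, ← gen_add _ _ hi, hS, hS, hn]
  have hall : ∀ n w w', S (w + n) (w' + n) = S w w' := by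
    refine fun n => hM.eq_top (fun w w' => ?_) n
    rw [← hS 3 w w']
    congr 1 <;> simp [gen0_three, Prod.ext_iff]
  set f : N (k + 1) → ℂ := fun n => S n 0
  have hSf : ∀ w w', S w w' = f (w - w') := fun w w' => by
    rw [← hall (-w') w w']; simp [f, sub_eq_add_neg]
  have hf : ∀ i, i ≠ 3 → ∀ n, f (gen0 i (k + 1) n) = f n := by
    intro i hi n
    have h0 : gen0 i (k + 1) 0 = 0 := (lin (k + 1) i hi).map_zero
    simp only [f]
    rw [← hS i n 0, h0]
  have hpos : (0 : ℝ) < Fintype.card (N (k + 1)) := by exact_mod_cast Fintype.card_pos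
  have hsum : ∑ w, ∑ w', ‖S w w'‖ ^ 2 = ∑ χ : AddChar (N (k + 1)) ℂ, ‖ft f χ‖ ^ 2 := by
    rw [ft_parseval, sum_comm]
    simp only [hSf]
    have : ∀ w' : N (k + 1), ∑ w, ‖f (w - w')‖ ^ 2 = ∑ n, ‖f n‖ ^ 2 := fun w' =>
      Equiv.sum_comp (Equiv.subRight w') fun n => ‖f n‖ ^ 2
    simp only [this, sum_const, card_univ, nsmul_eq_mul]
  rw [hsum]
  simp only [hSf]
  set P := ∑ χ : AddChar (N (k + 1)) ℂ, ‖ft f χ‖ ^ 2
  have hP : 0 ≤ P := by positivity
  have hk : (0 : ℝ) < k + 1 := by positivity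
  set B := √(P / (k + 1))
  have hB : ∀ χ, ‖starRingEnd ℂ (ft f χ) * (ft y χ * starRingEnd ℂ (ft y χ))‖ ≤
      B * ‖ft y χ‖ ^ 2 := by
    intro χ
    by_cases hχ : χ (zt (k + 1) 1) = 1
    · simp [ft_eq_zero hy χ hχ]
    · rw [norm_mul, norm_mul, Complex.norm_conj, Complex.norm_conj, ← sq]
      gcongr
      apply Real.le_sqrt_of_sq_le
      rw [le_div_iff₀' hk]
      exact orbit_count k f hf χ hχ
  have h1 := (norm_sum_le _ _).trans (sum_le_sum fun χ (_ : χ ∈ univ) => hB χ)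
  rw [ft_conv, ← mul_sum, ft_parseval, norm_mul, Complex.norm_natCast] at h1
  set Z := ‖∑ w, ∑ w', starRingEnd ℂ (f (w - w')) * (y w * starRingEnd ℂ (y w'))‖
  have hB0 : 0 ≤ B := Real.sqrt_nonneg _
  have h2 : Z ≤ B := by
    refine le_of_mul_le_mul_left (h1.trans ?_) hpos
    rw [mul_comm B, mul_assoc]
    gcongr
    exact mul_le_of_le_one_left hB0 hy1
  have h3 : B ^ 2 = P / (k + 1) := Real.sq_sqrt (by positivity)
  rw [← le_div_iff₀' hk, ← h3]
  gcongr

end Vale.Agent.P083
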