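import Vale.Agent.P083.Defs

/-! Elementary facts on the tower. -/

namespace Vale.Agent.P083

lemma g0 {k : ℕ} (n : N k) : gen0 0 k n = (n.1 + n.2.1, n.2.1, n.2.2) := rfl
lemma g1 {k : ℕ} (n : N k) : gen0 1 k n = (n.1, n.2.1 + n.2.2, n.2.2) := rfl
lemma g2 {k : ℕ} (n : N k) : gen0 2 k n = (n.1, n.2.1, n.2.2 + sh k n.1) := rfl
lemma g3 {k : ℕ} (n : N k) : gen0 3 k n = (n.1, n.2.1, n.2.2 + one k) := rfl
lemma i0 {k : ℕ} (n : N k) : (gen0 0 k)⁻¹ n = (n.1 - n.2.1, n.2.1, n.2.2) := rfl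
lemma i1 {k : ℕ} (n : N k) : (gen0 1 k)⁻¹ n = (n.1, n.2.1 - n.2.2, n.2.2) := rfl
lemma i2 {k : ℕ} (n : N k) : (gen0 2 k)⁻¹ n = (n.1, n.2.1, n.2.2 - sh k n.1) := rfl
lemma i3 {k : ℕ} (n : N k) : (gen0 3 k)⁻¹ n = (n.1, n.2.1, n.2.2 - one k) := rfl

lemma fin4 {P : Fin 4 → Prop} (h0 : P 0) (h1 : P 1) (h2 : P 2) (h3 : P 3) (i : Fin 4) : P i := by
  fin_cases i
  exacts [h0, h1, h2, h3]

lemma pow_of_add {k : ℕ} (σ : Equiv.Perm (N k)) (d : N k → N k) (h : ∀ n, σ n = n + d n)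
    (hd : ∀ n, d (n + d n) = d n) (j : ℕ) (n : N k) : (σ ^ j) n = n + j • d n := by
  induction j generalizing n with
  | zero => simp
  | succ j ih => rw [pow_succ, Equiv.Perm.mul_apply, ih, h, hd, succ_nsmul]; abel

lemma smul_N {k : ℕ} (n : N k) : 149 • n = 0 := by
  have h : ∀ x : F, 149 • x = 0 := fun x => by
    rw [nsmul_eq_mul]; exact mul_eq_zero_of_left (ZMod.natCast_self 149) x
  ext i <;> exact h _

theorem rel_gen0 (k : ℕ) : Rel fun i => gen0 i k := by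
  refine ⟨fin4 (P := fun i => gen0 i k ^ 149 = 1) (Equiv.ext fun n => ?_) (Equiv.ext fun n => ?_)
    (Equiv.ext fun n => ?_) (Equiv.ext fun n => ?_), ⟨?_, ?_⟩, ⟨?_, ?_⟩, ⟨?_, ?_⟩, ⟨?_, ?_⟩, ?_, ?_⟩
  · exact (pow_of_add _ (fun n => (n.2.1, 0, 0)) (fun n => by simp [g0, Prod.ext_iff])
      (fun n => by simp) 149 n).trans (by rw [smul_N, add_zero]; rfl)
  · exact (pow_of_add _ (fun n => (0, n.2.2, 0)) (fun n => by simp [g1, Prod.ext_iff])
      (fun n => by simp) 149 n).trans (by rw [smul_N, add_zero]; rfl)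
  · exact (pow_of_add _ (fun n => (0, 0, sh k n.1)) (fun n => by simp [g2, Prod.ext_iff])
      (fun n => by simp) 149 n).trans (by rw [smul_N, add_zero]; rfl)
  · exact (pow_of_add _ (fun n => (0, 0, one k)) (fun n => by simp [g3, Prod.ext_iff])
      (fun n => by simp) 149 n).trans (by rw [smul_N, add_zero]; rfl)
  all_goals
    refine Equiv.ext fun n => ?_
    refine Prod.ext ?_ (Prod.ext ?_ ?_) <;>
      simp only [Equiv.Perm.mul_apply, g0, g1, g2, g3, i0, i1, i2, i3, map_add, map_sub] <;> abel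

theorem rel_gen : Rel gen := by
  have h : ∀ a b : Γ, (∀ k, Commute (a.1 k) (b.1 k)) → Commute a b := fun a b h =>
    Subtype.ext (funext h)
  exact ⟨fun i => Subtype.ext (funext fun k => (rel_gen0 k).pow i),
    ⟨h _ _ fun k => (rel_gen0 k).h01.1, h _ _ fun k => (rel_gen0 k).h01.2⟩,
    ⟨h _ _ fun k => (rel_gen0 k).h12.1, h _ _ fun k => (rel_gen0 k).h12.2⟩,
    ⟨h _ _ fun k => (rel_gen0 k).h02.1, h _ _ fun k => (rel_gen0 k).h02.2⟩,
    ⟨h _ _ fun k => (rel_gen0 k).h13.1, h _ _ fun k => (rel_gen0 k).h13.2⟩,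
    h _ _ fun k => (rel_gen0 k).c03, h _ _ fun k => (rel_gen0 k).c23⟩

lemma sh_top (k : ℕ) (j : F) : sh k (j • top k) = 0 := by
  ext i
  obtain ⟨_ | i, hi⟩ := i
  · rfl
  · change j * top k ⟨i, by omega⟩ = 0
    simp [top, hi.ne]

theorem act_zt (γ : Γ) (k : ℕ) (w : N k) (j : F) : γ.1 k (w + zt k j) = γ.1 k w + zt k j := by
  obtain ⟨γ, hγ⟩ := γ
  induction hγ using Subgroup.closure_induction generalizing w with
  | mem γ h =>
    obtain ⟨i, rfl⟩ := h
    refine fin4 (P := fun i => gen0 i k (w + zt k j) = gen0 i k w + zt k j) ?_ ?_ ?_ ?_ i <;>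
      simp [g0, g1, g2, g3, zt, sh_top, add_right_comm]
  | one => rfl
  | mul γ γ' _ _ h h' => exact (congrArg (γ k) (h' w)).trans (h _)
  | inv γ _ h =>
    apply (γ k).injective
    have := h ((γ k)⁻¹ w)
    simp only [Pi.inv_apply, Equiv.Perm.coe_inv, Equiv.apply_symm_apply] at this ⊢
    exact this.symm

theorem act_cons (i : Fin 4) (v : X) (k : ℕ) (w : N k) :
    gen0 i (k + 1) (cons v w) = cons (actX i v) ((sec i v).1 k w) := by
  have h : ∀ (a b : F) (y y' : Y k), (Fin.cons a y + Fin.cons b y' : Y (k + 1)) =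
      Fin.cons (a + b) (y + y') := fun a b y y' => by
    ext i; refine Fin.cases ?_ (fun _ => ?_) i <;> simp
  refine fin4 (P := fun i => gen0 i (k + 1) (cons v w) = cons (actX i v) ((sec i v).1 k w))
    ?_ ?_ ?_ ?_ i
  · exact Prod.ext (h _ _ _ _) rfl
  · exact Prod.ext rfl (Prod.ext (h _ _ _ _) rfl)
  · have h1 := pow_of_add (gen0 3 k) (fun n => (0, 0, one k)) (fun n => by simp [g3, Prod.ext_iff])
      (fun n => by simp) v.1.val (gen0 2 k w)
    have h2 : sh (k + 1) (Fin.cons v.1 w.1) = Fin.cons 0 (sh k w.1 + v.1.val • one k) := by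
      ext i
      obtain ⟨_ | _ | i, hi⟩ := i
      · rfl
      · change v.1 = 0 + v.1.val • (1 : F)
        simp
      · change w.1 ⟨i, by omega⟩ = w.1 ⟨i, by omega⟩ + v.1.val • (0 : F)
        simp
    change _ = cons v ((gen0 3 k ^ v.1.val) (gen0 2 k w))
    rw [h1]
    simp only [g2, cons, h2, h, Prod.smul_mk, smul_zero, Prod.mk_add_mk, add_zero, add_assoc]
  · have h2 : one (k + 1) = Fin.cons 1 0 := by
      ext i; refine Fin.cases ?_ (fun _ => ?_) i <;> simp [one]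
    change _ = cons (v.1, v.2.1, v.2.2 + 1) w
    simp only [g3, cons, h2, h, add_zero]

theorem sec_mem (i : Fin 4) (v : X) : sec i v ∈ Subgroup.closure (Set.range gen) := by
  have h : ∀ i, gen i ∈ Subgroup.closure (Set.range gen) := fun i =>
    Subgroup.subset_closure ⟨i, rfl⟩
  fin_cases i
  exacts [h 0, h 1, mul_mem (pow_mem (h 3) _) (h 2), one_mem _]

/-- level `k + 1` is the product of the alphabet and level `k` -/
def consEquiv (k : ℕ) : X × N k ≃ N (k + 1) where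
  toFun p := cons p.1 p.2
  invFun n := ((n.1 0, n.2.1 0, n.2.2 0), (Fin.tail n.1, Fin.tail n.2.1, Fin.tail n.2.2))
  left_inv p := by simp [cons]
  right_inv n := by simp [cons]

theorem cons_zt (v : X) (k : ℕ) (w : N (k + 1)) (j : F) :
    cons v w + zt (k + 2) j = cons v (w + zt (k + 1) j) := by
  simp only [cons, zt, Prod.mk_add_mk, add_zero, Prod.fst_add, Prod.snd_add, Prod.mk.injEq,
    and_true]
  ext i; refine Fin.cases ?_ (fun _ => ?_) i <;> simp [top]

theorem cons_zt_zero (v : X) (w : N 0) (j : F) :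
    cons v w + zt 1 j = cons (v + (j, 0, 0)) w := by
  simp only [cons, zt, Prod.mk_add_mk, add_zero, Prod.fst_add, Prod.snd_add, Prod.mk.injEq,
    and_true]
  ext i; refine Fin.cases ?_ (fun i => i.elim0) i; simp [top]

theorem actX_add (i : Fin 4) (v : X) : actX i (v + (1, 0, 0)) = actX i v + (1, 0, 0) := by
  fin_cases i <;> simp [actX, add_right_comm]

end Vale.Agent.P083
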