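import Vale.Agent.P083.Gap
import Vale.Agent.P083.HG
import Vale.Agent.P083.Inv
import Vale.Agent.P083.Tower
import Vale.Agent.P083.CP
import Vale.Agent.P083.Gram

/-! No almost invariant vectors on high levels. -/

open InnerProductSpace

namespace Vale.Agent.P083

/-- the diagonal action on functions of two variables -/
noncomputable def rho2 (M : Type*) :
    Equiv.Perm M →* (PiLp 2 (fun _ : M × M => ℂ) →ₗ[ℝ] PiLp 2 (fun _ : M × M => ℂ)) where
  toFun γ :=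
    { toFun := fun v => WithLp.toLp 2 fun p => v (γ⁻¹ p.1, γ⁻¹ p.2)
      map_add' := fun v v' => by ext p; simp
      map_smul' := fun c v => by ext p; simp }
  map_one' := by ext v p; rfl
  map_mul' γ γ' := by ext v p; rfl

theorem sum_perm2 {M : Type*} [Fintype M] (γ : Equiv.Perm M) (f : M × M → ℝ) :
    ∑ p : M × M, f (γ p.1, γ p.2) = ∑ p, f p :=
  Equiv.sum_comp (Equiv.prodCongr γ γ) f

theorem exists_inv {M : Type*} [Fintype M] {g : Fin 4 → Equiv.Perm M} (hg : Rel g)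
    (h : M → M → ℂ) : ∃ S : M → M → ℂ, (∀ i w w', S (g i w) (g i w') = S w w') ∧
      ∑ w, ∑ w', ‖S w w' - h w w'‖ ^ 2 ≤
        10 ^ 8 * ∑ i, ∑ w, ∑ w', ‖h (g i w) (g i w') - h w w'‖ ^ 2 := by
  let V := PiLp 2 (fun _ : M × M => ℂ)
  let x : V := WithLp.toLp 2 fun p => h p.1 p.2
  have hn : ∀ v : V, ‖v‖ ^ 2 = ∑ p, ‖v p‖ ^ 2 := fun v => PiLp.norm_sq_eq_of_L2 _ v
  have hρ : ∀ γ (v : V), ‖rho2 M γ v‖ = ‖v‖ := by
    intro γ v
    have : ‖rho2 M γ v‖ ^ 2 = ‖v‖ ^ 2 := by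
      rw [hn, hn]
      exact sum_perm2 γ⁻¹ fun p => ‖v p‖ ^ 2
    exact (pow_left_inj₀ (norm_nonneg _) (norm_nonneg _) two_ne_zero).1 this
  set C : ℝ := 10 ^ 8 * ∑ i, ‖rho2 M (g i) x - x‖ ^ 2 with hC
  have hC0 : 0 ≤ C := by positivity
  let K : Set V := Metric.closedBall x (Real.sqrt C)
  have hK : IsCompact K := isCompact_closedBall _ _
  let f : V → ℝ := fun y => ∑ i, ‖rho2 M (g i) y - y‖ ^ 2
  have hf : Continuous f := by
    refine continuous_finset_sum _ fun i _ => ?_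
    have : Continuous (rho2 M (g i)) := LinearMap.continuous_of_finiteDimensional _
    fun_prop
  obtain ⟨y, hyK, hy⟩ := hK.exists_isMinOn ⟨x, Metric.mem_closedBall_self (Real.sqrt_nonneg _)⟩
    hf.continuousOn
  have hy0 : f y ≤ 0 := by
    refine le_of_forall_pos_le_add fun θ hθ => ?_
    obtain ⟨y', h1, h2⟩ := gap hg (rho2 M) hρ x hθ
    have : y' ∈ K := by
      show dist y' x ≤ _
      rw [dist_eq_norm]
      exact Real.le_sqrt_of_sq_le h1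
    have h3 : f y ≤ f y' := hy this
    have h4 : f y' ≤ θ := h2
    linarith
  have hinv : ∀ i, rho2 M (g i) y = y := by
    intro i
    have h1 : ‖rho2 M (g i) y - y‖ ^ 2 ≤ f y :=
      Finset.single_le_sum (f := fun i => ‖rho2 M (g i) y - y‖ ^ 2) (fun _ _ => by positivity)
        (Finset.mem_univ i)
    have h2 : ‖rho2 M (g i) y - y‖ ^ 2 = 0 := le_antisymm (h1.trans hy0) (by positivity)
    exact sub_eq_zero.1 (norm_eq_zero.1 (pow_eq_zero_iff two_ne_zero |>.1 h2))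
  refine ⟨fun w w' => y (w, w'), fun i w w' => ?_, ?_⟩
  · have := congrArg (fun v : V => v (g i w, g i w')) (hinv i)
    simpa [rho2] using this.symm
  · have h1 : ‖y - x‖ ^ 2 ≤ C := by
      have : ‖y - x‖ ≤ Real.sqrt C := by rw [← dist_eq_norm]; exact hyK
      calc ‖y - x‖ ^ 2 ≤ Real.sqrt C ^ 2 := by gcongr
        _ = C := Real.sq_sqrt hC0
    rw [hn, Fintype.sum_prod_type] at h1
    refine le_trans (le_of_eq ?_) (h1.trans (le_of_eq ?_))
    · rfl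
    · rw [hC]
      congr 1
      refine Finset.sum_congr rfl fun i _ => ?_
      rw [hn, ← sum_perm2 (g i), Fintype.sum_prod_type]
      refine Finset.sum_congr rfl fun w _ => Finset.sum_congr rfl fun w' _ => ?_
      rw [norm_sub_rev, PiLp.sub_apply]
      simp [rho2, x]

theorem fd (J : Type*) [Fintype J] : ∃ k, ∀ x : Fin 4 → J → J → ℂ, (∀ i, Contr 1 (x i)) →
    ∀ T : N (k + 1) → J → ℂ, MZ T →
      ∑ i, (∑ w, ∑ j, ∑ j', x i j j' * (starRingEnd ℂ (T (gen0 i (k + 1) w) j) * T w j')).re ≤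
        (4 - 1 / 10 ^ 9) * ∑ w, ∑ j, ‖T w j‖ ^ 2 := by
  obtain ⟨k, hk⟩ : ∃ k, k = 4 * Fintype.card J := ⟨_, rfl⟩
  refine ⟨k, fun x hx T hT => ?_⟩
  obtain ⟨σ, y, h, hσ, hy, hy1, hh, hA, hhA, hE⟩ := haagerup T
  obtain ⟨S, hS, hSh⟩ := exists_inv (rel_gen0 (k + 1)) h
  set A := ∑ l, σ l ^ 2 with hAdef
  set B := ∑ w, ∑ w', ‖S w w'‖ ^ 2 with hB
  have hB0 : 0 ≤ B := by positivity
  let c : J → ℂ := fun l => ∑ w, ∑ w', starRingEnd ℂ (S w w') * (y l w * starRingEnd ℂ (y l w'))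
  have hc : ∀ l, ((k : ℝ) + 1) * ‖c l‖ ^ 2 ≤ B := by
    intro l
    refine spread k S hS (y l) ?_ (hy1 l)
    obtain ⟨d, hd⟩ := hy l
    intro w
    simp only [hd]
    rw [Finset.sum_comm]
    refine Finset.sum_eq_zero fun j _ => ?_
    rw [← Finset.mul_sum]
    have := congrFun (hT w) j
    simp only [Finset.sum_apply, Pi.zero_apply] at this
    rw [this, mul_zero]
  have hc4 : ∑ l, 4 * ‖c l‖ ^ 2 ≤ B := by
    have h1 : ((k : ℝ) + 1) * ∑ l, 4 * ‖c l‖ ^ 2 ≤ ((k : ℝ) + 1) * B := by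
      calc ((k : ℝ) + 1) * ∑ l, 4 * ‖c l‖ ^ 2 = ∑ l, 4 * (((k : ℝ) + 1) * ‖c l‖ ^ 2) := by
            rw [Finset.mul_sum]; exact Finset.sum_congr rfl fun l _ => by ring
        _ ≤ ∑ _l : J, 4 * B := Finset.sum_le_sum fun l _ => by linarith [hc l]
        _ = (k : ℝ) * B := by simp [hk]; ring
        _ ≤ _ := by nlinarith
    exact le_of_mul_le_mul_left h1 (by positivity)
  have hin : ∑ w, ∑ w', starRingEnd ℂ (S w w') * h w w' = ∑ l, σ l * c l := by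
    simp only [hh, c, Finset.mul_sum]
    rw [Finset.sum_comm (s := Finset.univ (α := J))]
    refine Finset.sum_congr rfl fun w _ => ?_
    rw [Finset.sum_comm (s := Finset.univ (α := J))]
    exact Finset.sum_congr rfl fun w' _ => Finset.sum_congr rfl fun l _ => by ring
  have hre : 2 * (∑ w, ∑ w', starRingEnd ℂ (S w w') * h w w').re ≤ A / 4 + B := by
    rw [hin, Complex.re_sum, Finset.mul_sum]
    calc ∑ l, 2 * ((σ l : ℂ) * c l).re ≤ ∑ l, (σ l ^ 2 / 4 + 4 * ‖c l‖ ^ 2) := by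
          refine Finset.sum_le_sum fun l _ => ?_
          rw [Complex.re_ofReal_mul]
          have h1 := Complex.re_le_norm (c l)
          have h2 := hσ l
          nlinarith [sq_nonneg (σ l / 2 - 2 * ‖c l‖), mul_le_mul_of_nonneg_left h1 h2]
      _ = A / 4 + ∑ l, 4 * ‖c l‖ ^ 2 := by
          rw [Finset.sum_add_distrib, hAdef, Finset.sum_div]
      _ ≤ _ := by linarith
  have hd : ∑ w, ∑ w', ‖S w w' - h w w'‖ ^ 2 =
      B - 2 * (∑ w, ∑ w', starRingEnd ℂ (S w w') * h w w').re + A := by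
    rw [hB, ← hhA]
    simp only [Complex.re_sum, Finset.mul_sum, ← Finset.sum_sub_distrib, ← Finset.sum_add_distrib]
    refine Finset.sum_congr rfl fun w _ => Finset.sum_congr rfl fun w' _ => ?_
    simp only [Complex.sq_norm, Complex.normSq_apply, Complex.sub_re, Complex.sub_im,
      Complex.mul_re, Complex.conj_re, Complex.conj_im]
    ring
  have hs := Finset.sum_le_sum fun i (_ : i ∈ Finset.univ) => hE (gen0 i (k + 1)) (x i) (hx i)
  rw [Finset.sum_sub_distrib, ← Finset.sum_div] at hs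
  simp only [Finset.sum_const, Finset.card_univ, Fintype.card_fin, nsmul_eq_mul] at hs
  have hA0 : 0 ≤ A := by positivity
  rw [← hA]
  push_cast at hs
  linarith

theorem nuc {H : Type*} [NormedAddCommGroup H] [InnerProductSpace ℂ H] [CompleteSpace H]
    [Nontrivial H] (s : Bool → H →L[ℂ] H) (h1 : ∀ i, star (s i) * s i = 1)
    (h2 : s false * star (s false) + s true * star (s true) = 1) (a : Fin 4 → H →L[ℂ] H)
    (ha : ∀ i, a i ∈ (StarAlgebra.adjoin ℂ (Set.range s)).topologicalClosure)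
    (hn : ∀ i, ‖a i‖ ≤ 1 + 1 / 10 ^ 10) : ∃ k, ∀ T : N (k + 1) → H, MZ T →
      1 / 10 ^ 20 * ∑ w, ‖T w‖ ^ 2 ≤ ∑ i, ∑ w, ‖a i (T w) - T (gen0 i (k + 1) w)‖ ^ 2 := by
  obtain ⟨J, _, x, V, hx, hV, hap⟩ := cpap s h1 h2 a ha (ε := 1 / 10 ^ 11) (by norm_num)
  obtain ⟨k, hk⟩ := fd J
  refine ⟨k, fun T hT => ?_⟩
  obtain ⟨c, hc⟩ : ∃ c : ℝ, c = 1 + 1 / 10 ^ 10 := ⟨_, rfl⟩
  rw [← hc] at hn
  have hc0 : 0 < c := by rw [hc]; positivity
  have hx' : ∀ i, Contr 1 (fun j j' => ((c⁻¹ : ℝ) : ℂ) * x i j j') := by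
    intro i y y'
    have h3 := hx i y y'
    have h4 : (∑ j, ∑ j', ((c⁻¹ : ℝ) : ℂ) * x i j j' * (starRingEnd ℂ (y j) * y' j')) =
        ((c⁻¹ : ℝ) : ℂ) * ∑ j, ∑ j', x i j j' * (starRingEnd ℂ (y j) * y' j') := by
      simp only [Finset.mul_sum, mul_assoc]
    rw [h4, Complex.re_ofReal_mul, inv_mul_le_iff₀ hc0]
    have h5 : 0 ≤ ∑ j, ‖y j‖ ^ 2 + ∑ j, ‖y' j‖ ^ 2 := by positivity
    have := mul_le_mul_of_nonneg_right (hn i) h5
    linarith
  obtain ⟨n, b, hb⟩ := gram fun p : N (k + 1) × J => V p.2 (T p.1)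
  set B := ∑ w, ‖T w‖ ^ 2 with hB
  have hB0 : 0 ≤ B := by positivity
  have hl : ∀ l, ∑ i, (∑ w, ∑ j, ∑ j', x i j j' *
      (starRingEnd ℂ ⟪b l, V j (T (gen0 i (k + 1) w))⟫_ℂ * ⟪b l, V j' (T w)⟫_ℂ)).re ≤
      c * ((4 - 1 / 10 ^ 9) * ∑ w, ∑ j, ‖⟪b l, V j (T w)⟫_ℂ‖ ^ 2) := by
    intro l
    have h3 := hk _ hx' (fun w j => ⟪b l, V j (T w)⟫_ℂ) (by
      intro w
      ext j
      simp only [Finset.sum_apply, Pi.zero_apply]
      rw [← inner_sum, ← map_sum, hT w, map_zero, inner_zero_right])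
    rw [← inv_mul_le_iff₀ hc0, Finset.mul_sum]
    refine le_trans (le_of_eq ?_) h3
    refine Finset.sum_congr rfl fun i _ => ?_
    rw [← Complex.re_ofReal_mul]
    simp only [Finset.mul_sum, mul_assoc]
  have hs := Finset.sum_le_sum fun l (_ : l ∈ Finset.univ) => hl l
  have e1 : ∑ l, ∑ i, (∑ w, ∑ j, ∑ j', x i j j' *
      (starRingEnd ℂ ⟪b l, V j (T (gen0 i (k + 1) w))⟫_ℂ * ⟪b l, V j' (T w)⟫_ℂ)).re =
      ∑ i, ∑ w, (∑ j, ∑ j', x i j j' * ⟪V j (T (gen0 i (k + 1) w)), V j' (T w)⟫_ℂ).re := by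
    rw [Finset.sum_comm]
    refine Finset.sum_congr rfl fun i _ => ?_
    rw [← Complex.re_sum, ← Complex.re_sum, Finset.sum_comm]
    congr 1
    refine Finset.sum_congr rfl fun w _ => ?_
    rw [Finset.sum_comm]
    refine Finset.sum_congr rfl fun j _ => ?_
    rw [Finset.sum_comm]
    refine Finset.sum_congr rfl fun j' _ => ?_
    rw [← Finset.mul_sum, hb (gen0 i (k + 1) w, j) (w, j')]
  have e2 : ∑ l, c * ((4 - 1 / 10 ^ 9) * ∑ w, ∑ j, ‖⟪b l, V j (T w)⟫_ℂ‖ ^ 2) ≤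
      c * ((4 - 1 / 10 ^ 9) * B) := by
    rw [← Finset.mul_sum, ← Finset.mul_sum]
    gcongr
    rw [Finset.sum_comm]
    refine Finset.sum_le_sum fun w _ => ?_
    rw [Finset.sum_comm]
    refine le_trans (le_of_eq ?_) (hV (T w))
    exact Finset.sum_congr rfl fun j _ => (gram_norm hb (w, j)).symm
  have e3 : ∀ i, ∑ w, ‖T (gen0 i (k + 1) w)‖ ^ 2 = B := fun i =>
    Equiv.sum_comp (gen0 i (k + 1)) fun w => ‖T w‖ ^ 2
  have e4 : ∀ i w, (1 - 1 / 10 ^ 10 / 2 - 1 / 10 ^ 11) * ‖T (gen0 i (k + 1) w)‖ ^ 2 -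
      1 / 10 ^ 11 * ‖T w‖ ^ 2 - 10 ^ 10 / 2 * ‖a i (T w) - T (gen0 i (k + 1) w)‖ ^ 2 ≤
      (∑ j, ∑ j', x i j j' * ⟪V j (T (gen0 i (k + 1) w)), V j' (T w)⟫_ℂ).re := by
    intro i w
    have h3 := hap i (T (gen0 i (k + 1) w)) (T w)
    set ξ := T (gen0 i (k + 1) w)
    set d := a i (T w) - ξ with hd
    have h4 : a i (T w) = ξ + d := by rw [hd]; abel
    have h5 : (⟪ξ, a i (T w)⟫_ℂ).re = ‖ξ‖ ^ 2 + (⟪ξ, d⟫_ℂ).re := by
      rw [h4, inner_add_right, Complex.add_re, inner_self_eq_norm_sq_to_K]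
      norm_cast
    have h6 : -(‖ξ‖ * ‖d‖) ≤ (⟪ξ, d⟫_ℂ).re := by
      have := (Complex.abs_re_le_norm ⟪ξ, d⟫_ℂ).trans (norm_inner_le_norm ξ d)
      exact (abs_le.1 this).1
    nlinarith [sq_nonneg (‖ξ‖ / 10 ^ 5 - 10 ^ 5 * ‖d‖)]
  have e5 := Finset.sum_le_sum fun i (_ : i ∈ Finset.univ) =>
    Finset.sum_le_sum fun w (_ : w ∈ Finset.univ) => e4 i w
  simp only [Finset.sum_sub_distrib, ← Finset.mul_sum, e3, ← hB, Finset.sum_const,
    Finset.card_univ, Fintype.card_fin, nsmul_eq_mul] at e5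
  push_cast at e5
  rw [e1] at hs
  have := hs.trans e2
  rw [hc] at this
  nlinarith

end Vale.Agent.P083
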