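import Vale.Agent.P083.UG
import Vale.Agent.P083.Tower

/-! The level induction. -/

open Filter Topology InnerProductSpace

namespace Vale.Agent.P083

section Tw

variable {H : Type*} [NormedAddCommGroup H] [InnerProductSpace ℂ H] [CompleteSpace H]

theorem re_inner_op (A B : H →L[ℂ] H) (y : H) :
    |(⟪A y, B y⟫_ℂ).re| ≤ ‖star A * B‖ * ‖y‖ ^ 2 := by
  have e : ⟪A y, B y⟫_ℂ = ⟪y, (star A * B) y⟫_ℂ := by
    rw [ContinuousLinearMap.mul_apply, ContinuousLinearMap.star_eq_adjoint,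
      ContinuousLinearMap.adjoint_inner_right]
  rw [e]
  refine (Complex.abs_re_le_norm _).trans ((norm_inner_le_norm _ _).trans ?_)
  have := (star A * B).le_opNorm y
  nlinarith [norm_nonneg y]

theorem iso_bound (A : H →L[ℂ] H) (y : H) :
    |‖A y‖ ^ 2 - ‖y‖ ^ 2| ≤ ‖star A * A - 1‖ * ‖y‖ ^ 2 := by
  have e : ‖A y‖ ^ 2 - ‖y‖ ^ 2 = (⟪y, (star A * A - 1) y⟫_ℂ).re := by
    rw [ContinuousLinearMap.sub_apply, inner_sub_right, ContinuousLinearMap.mul_apply,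
      ContinuousLinearMap.star_eq_adjoint, ContinuousLinearMap.adjoint_inner_right,
      ContinuousLinearMap.one_apply, Complex.sub_re, ← inner_self_eq_norm_sq (𝕜 := ℂ),
      ← inner_self_eq_norm_sq (𝕜 := ℂ)]
    rfl
  rw [e]
  refine (Complex.abs_re_le_norm _).trans ((norm_inner_le_norm _ _).trans ?_)
  have := (star A * A - 1).le_opNorm y
  nlinarith [norm_nonneg y]

theorem ev_le {ω : Filter ℕ} {E : Type*} [NormedAddCommGroup E] {a : ℕ → E}
    (h : Tendsto a ω (𝓝 0)) {ε : ℝ} (hε : 0 < ε) : ∀ᶠ m in ω, ‖a m‖ ≤ ε :=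
  (tendsto_zero_iff_norm_tendsto_zero.1 h).eventually_le_const hε

theorem bdd_of_iso {ω : Filter ℕ} {A : ℕ → H →L[ℂ] H}
    (h : Tendsto (fun m => star (A m) * A m - 1) ω (𝓝 0)) :
    IsBoundedUnder (· ≤ ·) ω (norm ∘ A) := by
  refine ⟨2, (ev_le h one_pos).mono fun m hm => ?_⟩
  refine ContinuousLinearMap.opNorm_le_bound _ zero_le_two fun y => ?_
  have h1 := (abs_le.1 (iso_bound (A m) y)).2
  have h2 := mul_le_of_le_one_left (sq_nonneg ‖y‖) hm
  exact abs_le_of_sq_le_sq' (by nlinarith [sq_nonneg ‖y‖]) (by positivity) |>.2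

variable {M : Type*} [Fintype M]

/-- an operator twisted by a permutation -/
def tw (A : H →L[ℂ] H) (g : Equiv.Perm M) : PiLp 2 (fun _ : M => H) →ₗ[ℂ] PiLp 2 fun _ : M => H where
  toFun x := WithLp.toLp 2 fun w => A (x (g⁻¹ w))
  map_add' x y := by ext w; simp
  map_smul' c x := by ext w; simp

omit [CompleteSpace H] [Fintype M] in
theorem tw_apply (A : H →L[ℂ] H) (g : Equiv.Perm M) (x : PiLp 2 fun _ : M => H) (w : M) :
    tw A g x w = A (x (g⁻¹ w)) := rfl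

omit [CompleteSpace H] in
theorem tw_norm_sq (A : H →L[ℂ] H) (g : Equiv.Perm M) (x : PiLp 2 fun _ : M => H) :
    ‖tw A g x‖ ^ 2 = ∑ w, ‖A (x w)‖ ^ 2 := by
  rw [PiLp.norm_sq_eq_of_L2]
  exact Equiv.sum_comp g⁻¹ fun w => ‖A (x w)‖ ^ 2

omit [CompleteSpace H] in
theorem tw_norm_le (A : H →L[ℂ] H) (g : Equiv.Perm M) (x : PiLp 2 fun _ : M => H) :
    ‖tw A g x‖ ≤ ‖A‖ * ‖x‖ := by
  refine (abs_le_of_sq_le_sq' ?_ (by positivity)).2
  rw [tw_norm_sq, mul_pow, PiLp.norm_sq_eq_of_L2, Finset.mul_sum]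
  refine Finset.sum_le_sum fun w _ => ?_
  rw [← mul_pow]
  gcongr
  exact A.le_opNorm _

omit [CompleteSpace H] in
theorem tw_sub_self (A : H →L[ℂ] H) (g : Equiv.Perm M) (x : PiLp 2 fun _ : M => H) :
    ‖tw A g x - x‖ ^ 2 = ∑ w, ‖A (x w) - x (g w)‖ ^ 2 := by
  rw [PiLp.norm_sq_eq_of_L2, ← Equiv.sum_comp g]
  simp [tw_apply]

theorem tw_iso (A : H →L[ℂ] H) (g : Equiv.Perm M) (x : PiLp 2 fun _ : M => H) :
    |‖tw A g x‖ ^ 2 - ‖x‖ ^ 2| ≤ ‖star A * A - 1‖ * ‖x‖ ^ 2 := by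
  rw [tw_norm_sq, PiLp.norm_sq_eq_of_L2, ← Finset.sum_sub_distrib, Finset.mul_sum]
  exact (Finset.abs_sum_le_sum_abs _ _).trans (Finset.sum_le_sum fun w _ => iso_bound A _)

end Tw

/-- the gap on a level -/
def Gp {H : Type*} [NormedAddCommGroup H] [InnerProductSpace ℂ H] (u : Fin 4 → H →L[ℂ] H)
    (k : ℕ) : Prop :=
  ∀ T : N (k + 1) → H, MZ T → 1 / 10 ^ 20 * ∑ w, ‖T w‖ ^ 2 ≤
    ∑ i, ∑ w, ‖u i (T w) - T (gen0 i (k + 1) w)‖ ^ 2

theorem symm_cons {k : ℕ} (v : X) (w : N k) : (consEquiv k).symm (cons v w) = (v, w) :=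
  (consEquiv k).symm_apply_apply (v, w)

theorem sum_cons {k : ℕ} (f : N (k + 1) → ℝ) : ∑ n, f n = ∑ v, ∑ w, f (cons v w) := by
  rw [← (consEquiv k).sum_comp, Fintype.sum_prod_type]
  rfl

theorem single_le {M E : Type*} [Fintype M] [NormedAddCommGroup E] (f : M → E) (a : M) :
    ‖f a‖ ^ 2 ≤ ∑ w, ‖f w‖ ^ 2 :=
  Finset.single_le_sum (f := fun w => ‖f w‖ ^ 2) (fun _ _ => sq_nonneg _) (Finset.mem_univ _)

theorem exists_finset {A B C : Type*} [Finite A] [Finite B] (f : A → B → C) :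
    ∃ S : Finset C, ∀ c, c ∈ S ↔ ∃ a b, f a b = c := by
  refine ⟨(Set.finite_range fun p : A × B => f p.1 p.2).toFinset, fun c => ?_⟩
  simp

section Steps

variable {ω : Ultrafilter ℕ} {H : Type*} [NormedAddCommGroup H] [InnerProductSpace ℂ H]
  [CompleteSpace H] {U : Γ → ℕ → H →L[ℂ] H} {S : X → ℕ → H →L[ℂ] H}

theorem base [Nontrivial H] {Q : ℕ → H →L[ℂ] H}
    (hS : ∀ v, Tendsto (fun m => star (S v m) * S v m - 1) ω (𝓝 0))
    (hS' : ∀ v v', v ≠ v' → Tendsto (fun m => star (S v m) * S v' m) ω (𝓝 0))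
    (hQ : Tendsto (fun m => star (Q m) * Q m - 1) ω (𝓝 0))
    (hUQ : ∀ γ, Tendsto (fun m => U γ m * Q m - Q m) ω (𝓝 0))
    (hsec : ∀ i v, Tendsto (fun m => U (gen i) m * S v m - S (actX i v) m * U (sec i v) m) ω (𝓝 0)) :
    ∀ᶠ m in ω, ¬ Gp (fun i => U (gen i) m) 0 := by
  obtain ⟨ζ, hζ⟩ := exists_norm_eq H zero_le_one
  let T : ℕ → N 1 → H := fun m n => S (((consEquiv 0).symm n).1 + (1, 0, 0)) m (Q m ζ) -
    S ((consEquiv 0).symm n).1 m (Q m ζ)
  have hT : ∀ m v w, T m (cons v w) = S (v + (1, 0, 0)) m (Q m ζ) - S v m (Q m ζ) := by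
    intro m v w
    simp only [T, symm_cons]
  have hMZ : ∀ m, MZ (T m) := by
    intro m n
    obtain ⟨⟨v, w⟩, rfl⟩ := (consEquiv 0).surjective n
    change ∑ j : F, T m (cons v w + zt 1 j) = 0
    simp only [cons_zt_zero, hT, Finset.sum_sub_distrib]
    rw [sub_eq_zero, ← Equiv.sum_comp (Equiv.addRight (1 : F))
      fun j => S (v + (j, 0, 0)) m (Q m ζ)]
    refine Finset.sum_congr rfl fun j _ => ?_
    simp [add_assoc]
  have h1 : ∀ i v, Tendsto (fun m => U (gen i) m (S v m (Q m ζ)) - S (actX i v) m (Q m ζ)) ω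
      (𝓝 0) := by
    intro i v
    have a1 := (hsec i v).zero_mul_isBoundedUnder_le (bdd_of_iso hQ)
    have a2 := isBoundedUnder_le_mul_tendsto_zero (bdd_of_iso (A := S (actX i v)) (hS (actX i v))) (hUQ (sec i v))
    have a3 := ((ContinuousLinearMap.apply ℂ H ζ).continuous.tendsto _).comp (a1.add a2)
    simp only [add_zero, map_zero] at a3
    refine a3.congr fun m => ?_
    simp
  have h2 : Tendsto (fun m => ∑ i, ∑ w, ‖U (gen i) m (T m w) - T m (gen0 i 1 w)‖ ^ 2) ω (𝓝 0) := by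
    have : (0 : ℝ) = ∑ _i : Fin 4, ∑ _w : N 1, 0 := by simp
    rw [this]
    refine tendsto_finset_sum _ fun i _ => tendsto_finset_sum _ fun n _ => ?_
    obtain ⟨⟨v, w⟩, rfl⟩ := (consEquiv 0).surjective n
    change Tendsto (fun m => ‖U (gen i) m (T m (cons v w)) - T m (gen0 i 1 (cons v w))‖ ^ 2) ω _
    have := (((h1 i (v + (1, 0, 0))).sub (h1 i v)).norm).pow 2
    simp only [sub_zero, norm_zero, ne_eq, OfNat.ofNat_ne_zero, not_false_eq_true,
      zero_pow] at this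
    refine this.congr fun m => ?_
    rw [act_cons, hT, hT, map_sub, actX_add, sub_sub_sub_comm]
  have hne : ((0 : X) + (1, 0, 0)) ≠ 0 := by simp
  filter_upwards [h2.eventually_lt_const (show (0 : ℝ) < 1 / 10 ^ 21 by positivity),
    ev_le (hS (0 + (1, 0, 0))) (show (0 : ℝ) < 1 / 4 by positivity),
    ev_le (hS 0) (show (0 : ℝ) < 1 / 4 by positivity),
    ev_le (hS' _ _ hne) (show (0 : ℝ) < 1 / 4 by positivity),
    ev_le hQ (show (0 : ℝ) < 1 / 4 by positivity)] with m e1 e2 e3 e4 e5 hG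
  have b1 := hG (T m) (hMZ m)
  have b2 : ‖T m (cons 0 0)‖ ^ 2 ≤ ∑ w, ‖T m w‖ ^ 2 := single_le _ _
  rw [hT, @norm_sub_sq ℂ] at b2
  have c1 := (abs_le.1 (iso_bound (S (0 + (1, 0, 0)) m) (Q m ζ))).1
  have c2 := (abs_le.1 (iso_bound (S 0 m) (Q m ζ))).1
  have c3 := (abs_le.1 (re_inner_op (S (0 + (1, 0, 0)) m) (S 0 m) (Q m ζ))).2
  have c4 := (abs_le.1 (iso_bound (Q m) ζ)).1
  rw [hζ] at c4
  have d1 := mul_le_mul_of_nonneg_right e2 (sq_nonneg ‖Q m ζ‖)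
  have d2 := mul_le_mul_of_nonneg_right e3 (sq_nonneg ‖Q m ζ‖)
  have d3 := mul_le_mul_of_nonneg_right e4 (sq_nonneg ‖Q m ζ‖)
  rw [RCLike.re_to_complex] at b2
  linarith

theorem step (hb : ∀ γ, ∃ C, ∀ m, ‖U γ m‖ ≤ C)
    (hmul : ∀ γ γ', Tendsto (fun m => U (γ * γ') m - U γ m * U γ' m) ω (𝓝 0))
    (hone : Tendsto (fun m => U 1 m - 1) ω (𝓝 0))
    (hiso : ∀ γ, Tendsto (fun m => star (U γ m) * U γ m - 1) ω (𝓝 0))
    (hS : ∀ v, Tendsto (fun m => star (S v m) * S v m - 1) ω (𝓝 0))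
    (hsec : ∀ i v, Tendsto (fun m => U (gen i) m * S v m - S (actX i v) m * U (sec i v) m) ω (𝓝 0))
    (k : ℕ → ℕ) (hk : ∀ᶠ m in ω, ¬ Gp (fun i => U (gen i) m) (k m)) :
    ∀ᶠ m in ω, ¬ Gp (fun i => U (gen i) m) (k m + 1) := by
  classical
  let R : Γ → ∀ m, PiLp 2 (fun _ : N (k m + 1) => H) →ₗ[ℂ] PiLp 2 fun _ : N (k m + 1) => H :=
    fun γ m => tw (U γ m) (γ.1 (k m + 1))
  let W : ∀ m, Submodule ℂ (PiLp 2 fun _ : N (k m + 1) => H) := fun m =>
    { carrier := {x | MZ fun w => x w}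
      zero_mem' := fun w => by simp
      add_mem' := fun {a b} ha hb w => by
        simp only [PiLp.add_apply, Finset.sum_add_distrib, ha w, hb w, add_zero]
      smul_mem' := fun c a ha w => by
        simp only [PiLp.smul_apply, ← Finset.smul_sum, ha w, smul_zero] }
  have hex : ∀ m, ∃ ξ ∈ W m, ‖ξ‖ ≤ 1 ∧ (¬ Gp (fun i => U (gen i) m) (k m) →
      ‖ξ‖ = 1 ∧ ∑ i, ‖R (gen i) m ξ - ξ‖ ^ 2 ≤ 1 / 10 ^ 20) := by
    intro m
    by_cases hG : Gp (fun i => U (gen i) m) (k m)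
    · exact ⟨0, zero_mem _, by simp, fun h => absurd hG h⟩
    simp only [Gp, not_forall, not_le] at hG
    obtain ⟨T, hT, hlt⟩ := hG
    set x : PiLp 2 fun _ : N (k m + 1) => H := WithLp.toLp 2 T
    have e1 : ∑ i, ‖R (gen i) m x - x‖ ^ 2 < 1 / 10 ^ 20 * ‖x‖ ^ 2 := by
      simp only [R, tw_sub_self]
      rw [PiLp.norm_sq_eq_of_L2]
      exact hlt
    have hx : ‖x‖ ≠ 0 := by
      intro h0
      rw [h0] at e1
      have : 0 ≤ ∑ i, ‖R (gen i) m x - x‖ ^ 2 := Finset.sum_nonneg fun _ _ => sq_nonneg _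
      linarith
    have hn : ‖((‖x‖⁻¹ : ℝ) : ℂ) • x‖ = 1 := by
      rw [norm_smul, Complex.norm_real, norm_inv, norm_norm, inv_mul_cancel₀ hx]
    refine ⟨((‖x‖⁻¹ : ℝ) : ℂ) • x, Submodule.smul_mem _ _ hT, hn.le, fun _ => ⟨hn, ?_⟩⟩
    simp only [map_smul, ← smul_sub, norm_smul, mul_pow, ← Finset.mul_sum, Complex.norm_real,
      norm_inv, norm_norm]
    rw [inv_pow, inv_mul_le_iff₀ (by positivity), mul_comm]
    exact e1.le
  choose ξ hξW hξ1 hξ using hex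
  obtain ⟨S0, hS0⟩ := exists_finset sec
  obtain ⟨η, hηW, hη⟩ := ultraGap rel_gen ω R
    (fun γ => by
      obtain ⟨C, hC⟩ := hb γ
      exact ⟨C, fun m x => (tw_norm_le _ _ _).trans (by gcongr; exact hC m)⟩)
    (fun γ γ' ε hε => (ev_le (hmul γ γ') hε).mono fun m hm x => by
      have e : R (γ * γ') m x - R γ m (R γ' m x) =
          tw (U (γ * γ') m - U γ m * U γ' m) ((γ * γ').1 (k m + 1)) x := by
        ext w
        rfl
      rw [e]
      exact (tw_norm_le _ _ _).trans (by gcongr))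
    (fun ε hε => (ev_le hone hε).mono fun m hm x => by
      have e : R 1 m x - x = tw (U 1 m - 1) 1 x := by
        ext w
        rfl
      rw [e]
      exact (tw_norm_le _ _ _).trans (by gcongr))
    (fun γ ε hε => (ev_le (hiso γ) hε).mono fun m hm x => (tw_iso _ _ _).trans (by gcongr))
    W (fun γ m x hx w => by
      change ∑ j : F, U γ m (x ((γ⁻¹).1 (k m + 1) (w + zt _ j))) = 0
      simp only [act_zt]
      rw [← map_sum, hx, map_zero])
    ξ hξW hξ1 (hk.mono fun m hm => (hξ m hm).2)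
    S0 (fun γ hγ => by
      obtain ⟨i, v, rfl⟩ := (hS0 γ).1 hγ
      exact sec_mem _ _)
    (θ := 1 / 10 ^ 24) (by positivity)
  have hS1 : ∀ᶠ m in ω, ∀ v, ‖star (S v m) * S v m - 1‖ ≤ 1 / 2 :=
    eventually_all.2 fun v => ev_le (hS v) (by positivity)
  have hS2 : ∀ᶠ m in ω, ∀ i v,
      ‖U (gen i) m * S v m - S (actX i v) m * U (sec i v) m‖ ≤ 1 / 10 ^ 12 :=
    eventually_all.2 fun i => eventually_all.2 fun v => ev_le (hsec i v) (by positivity)
  filter_upwards [hη, hk, hS1, hS2] with m ⟨e1, e2⟩ e3 e4 e5 hG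
  let T : N (k m + 1 + 1) → H := fun n =>
    S ((consEquiv _).symm n).1 m (η m ((consEquiv _).symm n).2)
  have hT : ∀ v w, T (cons v w) = S v m (η m w) := by
    intro v w
    simp only [T, symm_cons]
  have hMZ : MZ T := by
    intro n
    obtain ⟨⟨v, w⟩, rfl⟩ := (consEquiv _).surjective n
    change ∑ j : F, T (cons v w + zt (k m + 2) j) = 0
    simp only [cons_zt, hT]
    rw [← map_sum, hηW m w, map_zero]
  have hd : ‖η m - ξ m‖ ≤ 1 / 2 := (abs_le_of_sq_le_sq' (by linarith) (by positivity)).2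
  have n1 : 1 / 2 ≤ ‖η m‖ := by
    have := norm_sub_norm_le (ξ m) (η m)
    rw [norm_sub_rev, (hξ m e3).1] at this
    linarith
  have n2 : ‖η m‖ ≤ 2 := by
    have := norm_sub_norm_le (η m) (ξ m)
    linarith [hξ1 m]
  have b1 := hG T hMZ
  rw [sum_cons, Finset.mul_sum, Finset.sum_congr rfl fun i _ => sum_cons _, Finset.sum_comm] at b1
  refine absurd b1 (not_le.2 (Finset.sum_lt_sum_of_nonempty Finset.univ_nonempty fun v _ => ?_))
  simp only [act_cons, hT]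
  have c1 : ‖η m‖ ^ 2 / 2 ≤ ∑ w, ‖S v m (η m w)‖ ^ 2 := by
    rw [PiLp.norm_sq_eq_of_L2, Finset.sum_div]
    refine Finset.sum_le_sum fun w _ => ?_
    have := (abs_le.1 (iso_bound (S v m) (η m w))).1
    have := mul_le_mul_of_nonneg_right (e4 v) (sq_nonneg ‖η m w‖)
    linarith
  have c2 : ∀ i, ∑ w, ‖U (gen i) m (S v m (η m w)) - S (actX i v) m (η m ((sec i v).1 _ w))‖ ^ 2 ≤
      12 / 10 ^ 24 := by
    intro i
    have d1 := e2 (sec i v) ((hS0 _).2 ⟨i, v, rfl⟩)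
    simp only [R, tw_sub_self] at d1
    have d2 : ∀ w, ‖U (gen i) m (S v m (η m w)) - S (actX i v) m (η m ((sec i v).1 _ w))‖ ^ 2 ≤
        2 / 10 ^ 24 * ‖η m w‖ ^ 2 +
          4 * ‖U (sec i v) m (η m w) - η m ((sec i v).1 _ w)‖ ^ 2 := by
      intro w
      have f1 : U (gen i) m (S v m (η m w)) - S (actX i v) m (η m ((sec i v).1 _ w)) =
          (U (gen i) m * S v m - S (actX i v) m * U (sec i v) m) (η m w) +
          S (actX i v) m (U (sec i v) m (η m w) - η m ((sec i v).1 _ w)) := by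
        rw [map_sub, ContinuousLinearMap.sub_apply, ContinuousLinearMap.mul_apply,
          ContinuousLinearMap.mul_apply, sub_add_sub_cancel]
      rw [f1]
      set a := (U (gen i) m * S v m - S (actX i v) m * U (sec i v) m) (η m w)
      set z := U (sec i v) m (η m w) - η m ((sec i v).1 _ w)
      have f2 : ‖a‖ ≤ 1 / 10 ^ 12 * ‖η m w‖ :=
        (ContinuousLinearMap.le_opNorm _ _).trans
          (mul_le_mul_of_nonneg_right (e5 i v) (norm_nonneg _))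
      have f3 := pow_le_pow_left₀ (norm_nonneg _) f2 2
      have f4 := (abs_le.1 (iso_bound (S (actX i v) m) z)).2
      have f5 := mul_le_mul_of_nonneg_right (e4 (actX i v)) (sq_nonneg ‖z‖)
      have f6 := pow_le_pow_left₀ (norm_nonneg _) (norm_add_le a (S (actX i v) m z)) 2
      nlinarith [sq_nonneg (‖a‖ - ‖S (actX i v) m z‖), sq_nonneg ‖z‖]
    refine (Finset.sum_le_sum fun w _ => d2 w).trans ?_
    rw [Finset.sum_add_distrib, ← Finset.mul_sum, ← Finset.mul_sum, ← PiLp.norm_sq_eq_of_L2]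
    nlinarith [norm_nonneg (η m)]
  have c3 := Finset.sum_le_sum fun i (_ : i ∈ Finset.univ) => c2 i
  simp only [Finset.sum_const, Finset.card_univ, Fintype.card_fin, nsmul_eq_mul] at c3
  refine c3.trans_lt ?_
  push_cast
  nlinarith

end Steps

theorem main (ω : Ultrafilter ℕ) {H : Type*} [NormedAddCommGroup H] [InnerProductSpace ℂ H]
    [CompleteSpace H] [Nontrivial H] (U : Γ → ℕ → H →L[ℂ] H) (S : X → ℕ → H →L[ℂ] H)
    (Q : ℕ → H →L[ℂ] H) (hb : ∀ γ, ∃ C, ∀ m, ‖U γ m‖ ≤ C)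
    (hmul : ∀ γ γ', Tendsto (fun m => U (γ * γ') m - U γ m * U γ' m) ω (𝓝 0))
    (hone : Tendsto (fun m => U 1 m - 1) ω (𝓝 0))
    (hiso : ∀ γ, Tendsto (fun m => star (U γ m) * U γ m - 1) ω (𝓝 0))
    (hS : ∀ v, Tendsto (fun m => star (S v m) * S v m - 1) ω (𝓝 0))
    (hS' : ∀ v v', v ≠ v' → Tendsto (fun m => star (S v m) * S v' m) ω (𝓝 0))
    (hQ : Tendsto (fun m => star (Q m) * Q m - 1) ω (𝓝 0))
    (hUQ : ∀ γ, Tendsto (fun m => U γ m * Q m - Q m) ω (𝓝 0))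
    (hsec : ∀ i v, Tendsto (fun m => U (gen i) m * S v m - S (actX i v) m * U (sec i v) m) ω (𝓝 0))
    (hN : ∀ᶠ m in ω, ∃ k, ∀ T : N (k + 1) → H, MZ T → 1 / 10 ^ 20 * ∑ w, ‖T w‖ ^ 2 ≤
      ∑ i, ∑ w, ‖U (gen i) m (T w) - T (gen0 i (k + 1) w)‖ ^ 2) : False := by
  classical
  have h0 := base hS hS' hQ hUQ hsec
  let K : ℕ → ℕ := fun m => sInf {k | Gp (fun i => U (gen i) m) k}
  have h1 : ∀ᶠ m in ω, Gp (fun i => U (gen i) m) (K m) ∧ K m ≠ 0 := by
    filter_upwards [hN, h0] with m e1 e2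
    have : Gp (fun i => U (gen i) m) (K m) := Nat.sInf_mem (s := {k | Gp _ k}) e1
    exact ⟨this, fun h => e2 (h ▸ this)⟩
  have h2 := step hb hmul hone hiso hS hsec (fun m => K m - 1) (h1.mono fun m hm =>
    Nat.notMem_of_lt_sInf (s := {k | Gp (fun i => U (gen i) m) k}) (Nat.sub_one_lt hm.2))
  obtain ⟨m, e1, e2⟩ := (h1.and h2).exists
  rw [Nat.sub_add_cancel (Nat.pos_of_ne_zero e1.2)] at e2
  exact e2 e1.1

end Vale.Agent.P083
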