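import Mathlib

/-! A representation of a nonzero algebra: a Hahn-Banach functional with `‖φ‖ = 1 = φ 1` is
positive; then GNS. -/

open scoped ComplexOrder InnerProductSpace

namespace Vale.Agent.P083

theorem im_eq_zero_of_norm {D : Type*} [CStarAlgebra D] [Nontrivial D] (φ : D →L[ℂ] ℂ)
    (h1 : ‖φ‖ ≤ 1) (h2 : φ 1 = 1) {a : D} (ha : IsSelfAdjoint a) : (φ a).im = 0 := by
  have key : ∀ t : ℝ, (φ a).im ^ 2 + 2 * t * (φ a).im ≤ ‖a‖ ^ 2 := by
    intro t
    set b : D := a + ((t : ℂ) * Complex.I) • (1 : D) with hb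
    have e1 : star b * b = a * a + ((t ^ 2 : ℝ) : ℂ) • (1 : D) := by
      rw [hb, star_add, star_smul, ha.star_eq, star_one]
      simp only [add_mul, mul_add, smul_mul_assoc, mul_smul_comm, one_mul, mul_one, smul_smul,
        star_mul', Complex.star_def, Complex.conj_ofReal, Complex.conj_I]
      have : (t : ℂ) * Complex.I * ((t : ℂ) * -Complex.I) = ((t ^ 2 : ℝ) : ℂ) := by
        push_cast
        linear_combination (-(t : ℂ) ^ 2) * Complex.I_mul_I
      rw [smul_add, smul_smul, this]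
      module
    have e2 : ‖b‖ ^ 2 ≤ ‖a‖ ^ 2 + t ^ 2 := by
      rw [sq, ← CStarRing.norm_star_mul_self, e1]
      refine (norm_add_le _ _).trans (add_le_add ?_ ?_)
      · rw [sq]; exact norm_mul_le _ _
      · rw [norm_smul, norm_one, mul_one, Complex.norm_real, Real.norm_eq_abs,
          abs_of_nonneg (sq_nonneg t)]
    have e3 : ‖φ b‖ ≤ ‖b‖ := (φ.le_opNorm b).trans (by nlinarith [norm_nonneg b])
    have e4 : (φ b).im = (φ a).im + t := by simp [hb, h2]
    have e5 : (φ b).im ^ 2 ≤ ‖φ b‖ ^ 2 := by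
      rw [← sq_abs]
      gcongr
      exact Complex.abs_im_le_norm _
    have e6 : ‖φ b‖ ^ 2 ≤ ‖b‖ ^ 2 := by gcongr
    rw [e4] at e5
    nlinarith
  by_contra hne
  have := key ((‖a‖ ^ 2 + 1) / (2 * (φ a).im))
  have h3 : 2 * ((‖a‖ ^ 2 + 1) / (2 * (φ a).im)) * (φ a).im = ‖a‖ ^ 2 + 1 := by field_simp
  nlinarith [sq_nonneg (φ a).im]

universe u in
theorem rep (D : Type u) [CStarAlgebra D] [Nontrivial D] :
    ∃ (H : Type u) (_ : NormedAddCommGroup H) (_ : InnerProductSpace ℂ H) (_ : CompleteSpace H),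
      Nontrivial H ∧ Nonempty (D →⋆ₐ[ℂ] (H →L[ℂ] H)) := by
  letI : PartialOrder D := CStarAlgebra.spectralOrder D
  haveI : StarOrderedRing D := CStarAlgebra.spectralOrderedRing D
  obtain ⟨φ, h1, h2⟩ := exists_dual_vector ℂ (1 : D) (by simp)
  rw [norm_one] at h2
  have h2' : φ 1 = 1 := by simpa using h2
  have hpos : ∀ a : D, 0 ≤ a → 0 ≤ φ.toLinearMap a := by
    intro a ha
    have him := im_eq_zero_of_norm φ h1.le h2' ha.isSelfAdjoint
    have h3 : 0 ≤ algebraMap ℝ D ‖a‖ - a :=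
      sub_nonneg.2 (IsSelfAdjoint.le_algebraMap_norm_self ha.isSelfAdjoint)
    have h4 : ‖algebraMap ℝ D ‖a‖ - a‖ ≤ ‖a‖ := by
      have := CStarAlgebra.norm_le_norm_of_nonneg_of_le h3 (sub_le_self _ ha)
      simpa using this
    have h5 : ‖φ (algebraMap ℝ D ‖a‖ - a)‖ ≤ ‖a‖ :=
      (φ.le_opNorm _).trans (by rw [h1, one_mul]; exact h4)
    have h6 : φ (algebraMap ℝ D ‖a‖ - a) = (‖a‖ : ℂ) - φ a := by
      rw [map_sub, Algebra.algebraMap_eq_smul_one, ← Complex.coe_smul, map_smul, h2']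
      simp
    have h7 := (Complex.re_le_norm _).trans h5
    rw [h6] at h7
    simp only [Complex.sub_re, Complex.ofReal_re] at h7
    exact Complex.nonneg_iff.2 ⟨by simpa using h7, by simpa using him.symm⟩
  let f : D →ₚ[ℂ] ℂ := PositiveLinearMap.mk₀ φ.toLinearMap hpos
  refine ⟨f.GNS, inferInstance, inferInstance, inferInstance, ?_, ⟨f.gnsStarAlgHom⟩⟩
  refine ⟨((f.toPreGNS 1 : f.PreGNS) : f.GNS), 0, fun h => ?_⟩
  have h3 : ‖f.toPreGNS 1‖ = 0 := by
    rw [← UniformSpace.Completion.norm_coe, h, norm_zero]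
  have h4 := f.preGNS_norm_sq (f.toPreGNS 1)
  rw [h3] at h4
  have h5 : f 1 = 1 := h2'
  simp [h5] at h4

end Vale.Agent.P083
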