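import Vale.Agent.P083.Ult
import Vale.Agent.P083.FD
import Vale.Agent.P083.Main
import Vale.Agent.P083.Alg
import Vale.Agent.P083.Rep

/-! The final assembly. -/

open Filter Topology BoundedContinuousFunction

namespace Vale.Agent.P083

universe u

theorem lifts {A D : Type*} [CStarAlgebra A] [CStarAlgebra D] {ω : Ultrafilter ℕ}
    (φ : A →⋆ₐ[ℂ] Ultrapower D ω) : ∃ L : A → ℕ →ᵇ D,
      (∀ a b, Tendsto (fun m => L (a * b) m - L a m * L b m) ω (𝓝 0)) ∧
      Tendsto (fun m => L 1 m - 1) ω (𝓝 0) ∧ Tendsto (fun m => L 0 m) ω (𝓝 0) ∧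
      ∀ a, Tendsto (fun m => L (star a) m - star (L a m)) ω (𝓝 0) := by
  let mk : (ℕ →ᵇ D) →+* Ultrapower D ω := Ideal.Quotient.mk (nullIdeal D ω)
  have h0 : Function.Surjective mk := Ideal.Quotient.mk_surjective
  have h1 : ∀ x, mk (star x) = star (mk x) := fun _ => rfl
  have h : ∀ x y : ℕ →ᵇ D, mk x = mk y → Tendsto (fun m => x m - y m) ω (𝓝 0) := fun x y h =>
    tendsto_zero_iff_norm_tendsto_zero.2 ((Ideal.Quotient.eq (I := nullIdeal D ω)).1 h)
  choose L hL using fun a => h0 (φ a)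
  refine ⟨L, fun a b => h _ (L a * L b) ?_, h _ 1 ?_, (h (L 0) 0 ?_).congr fun m => sub_zero _,
    fun a => h _ (star (L a)) ?_⟩
  · rw [map_mul, hL, hL, hL, map_mul]
  · rw [hL, map_one, map_one]
  · rw [hL, map_zero, map_zero]
  · rw [hL, map_star, h1, hL]

theorem final : ∃ (A : Type) (_ : CStarAlgebra A), TopologicalSpace.SeparableSpace A ∧
    Nontrivial A ∧ ∀ (D : Type u) [CStarAlgebra D] (s₁ s₂ : D), star s₁ * s₁ = 1 →
      star s₂ * s₂ = 1 → s₁ * star s₁ + s₂ * star s₂ = 1 →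
      (StarAlgebra.adjoin ℂ {s₁, s₂}).topologicalClosure = ⊤ →
      ∀ ω : Ultrafilter ℕ, ¬ ∃ φ : A →⋆ₐ[ℂ] Ultrapower D ω, Function.Injective φ := by
  obtain ⟨A, _, u, s, q, a1, a2, a3, a4, a5, a6, a7, a8⟩ := alg
  refine ⟨A, inferInstance, a1, a2, fun D _ s₁ s₂ h1 h2 h3 h4 ω ⟨φ, hφ⟩ => ?_⟩
  cases subsingleton_or_nontrivial D with
  | inl h =>
    have : Subsingleton (ℕ →ᵇ D) := ⟨fun a b => by ext; exact Subsingleton.elim _ _⟩
    have : Subsingleton (Ultrapower D ω) :=
      (Ideal.Quotient.mk_surjective (I := nullIdeal D ω)).subsingleton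
    exact one_ne_zero (hφ (Subsingleton.elim (φ 1) (φ 0)))
  | inr h =>
    obtain ⟨H, _, _, _, _, ⟨π⟩⟩ := rep D
    obtain ⟨L, l1, l2, l3, l4⟩ := lifts φ
    have p0 : ∀ x, ‖π x‖ ≤ ‖x‖ := fun x => NonUnitalStarAlgHom.norm_apply_le π x
    have p1 : ∀ {x : ℕ → D}, Tendsto x ω (𝓝 0) → Tendsto (fun m => π (x m)) ω (𝓝 0) := fun h =>
      squeeze_zero_norm (fun _ => p0 _) (tendsto_zero_iff_norm_tendsto_zero.1 h)
    have m1 : ∀ a b, Tendsto (fun m => π (L (a * b) m) - π (L a m) * π (L b m)) ω (𝓝 0) :=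
      fun a b => by simpa using p1 (l1 a b)
    have m2 : Tendsto (fun m => π (L 1 m) - 1) ω (𝓝 0) := by simpa using p1 l2
    have m3 : ∀ a b, Tendsto (fun m => star (π (L a m)) * π (L b m) - π (L (star a * b) m)) ω
        (𝓝 0) := fun a b => by
      have e1 : Tendsto (fun m => (L (star a) m - star (L a m)) * L b m) ω (𝓝 0) :=
        squeeze_zero_norm (fun m => (norm_mul_le _ _).trans (mul_le_mul_of_nonneg_left
          ((L b).norm_coe_le_norm m) (norm_nonneg _))) (by simpa using (l4 a).norm.mul_const ‖L b‖)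
      have e2 := ((l1 (star a) b).add e1).neg
      rw [add_zero, neg_zero] at e2
      refine (p1 e2).congr fun m => ?_
      simp only [map_neg, map_add, map_sub, map_mul, map_star, sub_mul]
      abel
    have m4 : ∀ a, star a * a = 1 →
        Tendsto (fun m => star (π (L a m)) * π (L a m) - 1) ω (𝓝 0) := fun a ha => by
      simpa [ha] using (m3 a a).add m2
    refine main ω (fun γ m => π (L (u γ) m)) (fun v m => π (L (s v) m)) (fun m => π (L q m))
      (fun γ => ⟨_, fun m => (p0 _).trans ((L (u γ)).norm_coe_le_norm m)⟩)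
      (fun γ γ' => by simpa using m1 (u γ) (u γ')) (by simpa using m2) (fun γ => m4 _ (a3 γ))
      (fun v => m4 _ (a4 v)) (fun v v' hv => by simpa [a5 v v' hv] using (m3 (s v) (s v')).add (p1 l3))
      (m4 _ a6) (fun γ => by simpa [a7] using (m1 (u γ) q).neg) (fun i v => by
        simpa [a8] using (m1 (s (actX i v)) (u (sec i v))).sub (m1 (u (gen i)) (s v))) ?_
    have n1 : ∀ᶠ m in ω, ∀ i, ‖π (L (u (gen i)) m)‖ ≤ 1 + 1 / 10 ^ 10 :=
      eventually_all.2 fun i => by
        filter_upwards [(m4 _ (a3 (gen i))).norm.eventually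
          (gt_mem_nhds (show ‖(0 : H →L[ℂ] H)‖ < 1 / 10 ^ 10 by simp))] with m hm
        have e1 := norm_add_le (star (π (L (u (gen i)) m)) * π (L (u (gen i)) m) - 1) 1
        rw [sub_add_cancel, CStarRing.norm_star_mul_self, norm_one] at e1
        nlinarith [norm_nonneg (π (L (u (gen i)) m))]
    filter_upwards [n1] with m hm
    refine nuc (fun b => π (cond b s₂ s₁)) (fun b => ?_) ?_ _ (fun i => ?_) hm
    · cases b <;> simp [← map_star, ← map_mul, h1, h2]
    · simp [← map_star, ← map_mul, ← map_add, h3]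
    · have e1 : L (u (gen i)) m ∈ closure (StarAlgebra.adjoin ℂ {s₁, s₂} : Set D) := by
        rw [← StarSubalgebra.topologicalClosure_coe, h4]; trivial
      refine map_mem_closure (f := π) (AddMonoidHomClass.continuous_of_bound π 1
        (by simpa using p0)) e1 fun x hx => ?_
      refine StarAlgebra.adjoin_le (S := (StarAlgebra.adjoin ℂ (Set.range fun b =>
        π (cond b s₂ s₁))).comap π) ?_ hx
      rintro _ (rfl | rfl)
      exacts [StarAlgebra.subset_adjoin _ _ ⟨false, rfl⟩, StarAlgebra.subset_adjoin _ _ ⟨true, rfl⟩]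

end Vale.Agent.P083
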