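import Vale.Agent.P083.Defs

/-! Spectral gap for groups with the relations `Rel`. -/

open RealInnerProductSpace

namespace Vale.Agent.P083

section
variable {V : Type*} [SeminormedAddCommGroup V] [InnerProductSpace ℝ V]

/-- orthogonal projections -/
structure Proj (P : Module.End ℝ V) : Prop where
  idem : ∀ x, P (P x) = P x
  symm : ∀ x y, ⟪P x, y⟫ = ⟪x, P y⟫

lemma Proj.compl {P : Module.End ℝ V} (h : Proj P) : Proj (1 - P) :=
  ⟨fun x => by simp [h.idem], fun x y => by simp [inner_sub_left, inner_sub_right, h.symm]⟩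

lemma Proj.sq {P : Module.End ℝ V} (h : Proj P) (x : V) : ⟪x, P x⟫ = ‖P x‖ ^ 2 := by
  rw [← real_inner_self_eq_norm_sq, h.symm, h.idem]

lemma Proj.split {P : Module.End ℝ V} (h : Proj P) (x y : V) :
    ⟪x, y⟫ = ⟪P x, P y⟫ + ⟪x - P x, y - P y⟫ := by
  simp [inner_sub_left, inner_sub_right, h.symm, h.idem]

lemma Proj.le {P : Module.End ℝ V} (h : Proj P) (x : V) : ‖P x‖ ^ 2 ≤ ‖x‖ ^ 2 := by
  have := h.split x x
  simp only [real_inner_self_eq_norm_sq] at this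
  nlinarith [sq_nonneg ‖x - P x‖]

lemma comm_nonneg {P R : Module.End ℝ V} (hP : Proj P) (hR : Proj R) {y : V}
    (h : P (R y) = R (P y)) : 0 ≤ ⟪(1 - P) y, (1 - R) y⟫ := by
  have h1 : (1 - R) ((1 - P) y) = (1 - P) ((1 - R) y) := by simp [h]; abel
  rw [← hR.compl.idem, ← hR.compl.symm, h1, real_inner_comm, hP.compl.sq]
  positivity

lemma angle {P R : Module.End ℝ V} (hP : Proj P) (hR : Proj R) {y : V}
    (h : P (R (P y)) = (149 : ℝ)⁻¹ • P y) :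
    -(3 / 10) * (‖(1 - P) y‖ ^ 2 + ‖(1 - R) y‖ ^ 2) ≤ 2 * ⟪(1 - P) y, (1 - R) y⟫ := by
  have h1 : ‖R (P y)‖ ^ 2 = 149⁻¹ * ‖P y‖ ^ 2 := by
    rw [← hR.sq, hP.symm, h, inner_smul_right, hP.sq]
  have h2 : ⟪P y, R y⟫ = ⟪R (P y), R y⟫ := by rw [hR.symm, hR.idem]
  have h3 := sq_nonneg ‖(12 : ℝ) • R (P y) + R y‖
  have h4 := sq_nonneg ‖(12 : ℝ) • R (P y) - R y‖
  have h5 := sq_nonneg ‖(13 / 12 : ℝ) • y - (P y + R y)‖
  have h6 := hP.sq y
  have h7 := hR.sq y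
  rw [norm_add_sq_real, norm_smul, inner_smul_left, mul_pow, h1, ← h2] at h3
  rw [norm_sub_sq_real, norm_smul, inner_smul_left, mul_pow, h1, ← h2] at h4
  rw [norm_sub_sq_real, norm_add_sq_real, norm_smul, inner_smul_left, inner_add_right, h6, h7,
    mul_pow] at h5
  simp only [LinearMap.sub_apply, Module.End.one_apply, norm_sub_sq_real, inner_sub_left,
    inner_sub_right, real_inner_self_eq_norm_sq, h6, h7, real_inner_comm y (P y)]
  simp only [Real.norm_eq_abs, sq_abs, conj_trivial] at h3 h4 h5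
  nlinarith [sq_nonneg ‖P y‖, sq_nonneg ‖y‖]

variable {G : Type*} [Group G] (ρ : G →* (V →ₗ[ℝ] V))

/-- averaging over a cyclic subgroup -/
noncomputable def avg (a : G) : Module.End ℝ V :=
  (149 : ℝ)⁻¹ • ∑ j ∈ Finset.range 149, ρ (a ^ j)

lemma avg_apply (a : G) (x : V) :
    avg ρ a x = (149 : ℝ)⁻¹ • ∑ j ∈ Finset.range 149, ρ (a ^ j) x := by
  simp only [avg, LinearMap.smul_apply, LinearMap.sum_apply]

lemma fix_pow {a : G} {x : V} (h : ρ a x = x) (j : ℕ) : ρ (a ^ j) x = x := by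
  induction j with
  | zero => simp
  | succ j ih => rw [pow_succ, map_mul, Module.End.mul_apply, h, ih]

lemma avg_fix {a : G} {x : V} (h : ρ a x = x) : avg ρ a x = x := by
  simp only [avg_apply, fix_pow ρ h, Finset.sum_const, Finset.card_range]
  rw [← Nat.cast_smul_eq_nsmul ℝ, smul_smul]; norm_num

lemma avg_comm {a b : G} (h : Commute a b) (x : V) : ρ b (avg ρ a x) = avg ρ a (ρ b x) := by
  rw [avg_apply, avg_apply]
  simp only [map_smul, map_sum, ← Module.End.mul_apply, ← map_mul, fun j => (h.pow_left j).eq]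

lemma avg_comm' {a b : G} (h : Commute a b) (x : V) :
    avg ρ b (avg ρ a x) = avg ρ a (avg ρ b x) := by
  rw [avg_apply ρ b, avg_apply ρ b]
  simp only [map_smul, map_sum, fun j => avg_comm ρ (h.pow_right j)]

lemma fix_avg {a : G} (ha : a ^ 149 = 1) (x : V) : ρ a (avg ρ a x) = avg ρ a x := by
  simp only [avg_apply, map_smul, map_sum, ← Module.End.mul_apply, ← map_mul, ← pow_succ']
  have h1 := Finset.sum_range_succ' (fun j => ρ (a ^ j) x) 149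
  rw [Finset.sum_range_succ, ha, pow_zero] at h1
  rw [add_right_cancel h1]

lemma avg_pow {a : G} (ha : a ^ 149 = 1) (j : ℕ) (x : V) : avg ρ a (ρ (a ^ j) x) = avg ρ a x := by
  rw [← avg_comm ρ ((Commute.refl a).pow_right j), fix_pow ρ (fix_avg ρ ha x)]

variable {ρ}

lemma avg_proj (hρ : ∀ γ x, ‖ρ γ x‖ = ‖x‖) {a : G} (ha : a ^ 149 = 1) : Proj (avg ρ a) := by
  have h1 : ∀ γ x y, ⟪ρ γ x, ρ γ y⟫ = ⟪x, y⟫ := fun γ x y =>
    (⟨ρ γ, hρ γ⟩ : V →ₗᵢ[ℝ] V).inner_map_map x y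
  have h2 : ∀ x y, ⟪avg ρ a x, avg ρ a y⟫ = ⟪x, avg ρ a y⟫ := fun x y => by
    have h3 : ∀ j, ⟪ρ (a ^ j) x, avg ρ a y⟫ = ⟪x, avg ρ a y⟫ := fun j => by
      rw [← h1 (a ^ j) x, fix_pow ρ (fix_avg ρ ha y)]
    rw [avg_apply ρ a x, inner_smul_left, sum_inner]
    simp only [h3, Finset.sum_const, Finset.card_range, nsmul_eq_mul, conj_trivial]
    rw [← mul_assoc]; norm_num
  exact ⟨fun x => avg_fix ρ (fix_avg ρ ha x), fun x y => by
    rw [← h2 x y, real_inner_comm, ← h2 y x, real_inner_comm]⟩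

lemma heis_pow {a b z : G} (h : a * b = z * b * a) (ha : Commute z a) (hb : Commute z b)
    (i j : ℕ) : a ^ i * b ^ j = z ^ (j * i) * b ^ j * a ^ i := by
  have h1 : a * b ^ j = z ^ j * b ^ j * a := by
    induction j with
    | zero => simp
    | succ j ih =>
      rw [pow_succ, ← mul_assoc, ih, mul_assoc, h, pow_succ z, mul_assoc, mul_assoc, mul_assoc,
        mul_assoc, mul_assoc, ← mul_assoc (b ^ j) z, ← (hb.pow_right j).eq, mul_assoc]
  induction i with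
  | zero => simp
  | succ i ih =>
    rw [pow_succ', mul_assoc, ih, ← mul_assoc, ← mul_assoc, ← (ha.pow_left _).eq, mul_assoc _ a, h1,
      mul_add, mul_one, pow_add]
    simp only [mul_assoc]

lemma heis (hρ : ∀ γ x, ‖ρ γ x‖ = ‖x‖) {a b : G} (ha : a ^ 149 = 1) (hb : b ^ 149 = 1)
    (h : Heis a b) (x : V) : -(3 / 10) * (‖(1 - avg ρ a) x‖ ^ 2 + ‖(1 - avg ρ b) x‖ ^ 2) ≤
      2 * ⟪(1 - avg ρ a) x, (1 - avg ρ b) x⟫ := by
  obtain ⟨za, zb⟩ := h
  have h0 : a * b = a * b * a⁻¹ * b⁻¹ * b * a := by group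
  generalize a * b * a⁻¹ * b⁻¹ = z at za zb h0
  have hp := heis_pow h0 za zb
  have hz : z ^ 149 = 1 := by simpa [ha] using hp 149 1
  have pa := avg_proj hρ ha
  have pb := avg_proj hρ hb
  have pz := avg_proj hρ hz
  have ca := avg_comm' ρ za
  have cb := avg_comm' ρ zb
  have h1 : avg ρ a (avg ρ b (avg ρ z x)) = avg ρ b (avg ρ a (avg ρ z x)) := by
    rw [cb, ca, ca, cb, avg_apply ρ a, avg_apply ρ b x, avg_apply ρ b, avg_apply ρ a x]
    simp only [map_smul, map_sum, Finset.smul_sum]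
    rw [Finset.sum_comm]
    refine Finset.sum_congr rfl fun j _ => Finset.sum_congr rfl fun i _ => ?_
    rw [← Module.End.mul_apply (ρ _), ← map_mul, hp, mul_assoc, map_mul, Module.End.mul_apply,
      avg_pow ρ hz, map_mul, Module.End.mul_apply]
  have h2 : ∀ j ∈ Finset.range 148, avg ρ z (avg ρ a (ρ (b ^ (j + 1)) (avg ρ a x))) =
      avg ρ a (ρ (b ^ (j + 1)) (avg ρ a x)) := fun j hj => by
    have h3 : ρ (z ^ (j + 1)) (avg ρ a (ρ (b ^ (j + 1)) (avg ρ a x))) =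
        avg ρ a (ρ (b ^ (j + 1)) (avg ρ a x)) := by
      have h4 := hp 1 (j + 1)
      rw [mul_one] at h4
      rw [avg_comm ρ (za.symm.pow_right _), ← avg_pow ρ ha 1 (ρ (b ^ (j + 1)) _),
        ← Module.End.mul_apply (ρ (a ^ 1)), ← map_mul, h4, map_mul, map_mul, Module.End.mul_apply,
        Module.End.mul_apply, pow_one, fix_avg ρ ha]
    obtain ⟨i, -, hi⟩ := Nat.exists_mul_mod_eq_one_of_coprime (k := 149) (n := j + 1)
      ((Nat.coprime_of_lt_prime (by omega) (by have := Finset.mem_range.1 hj; omega) (by norm_num)).symm) (by norm_num)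
    have h5 := fix_pow ρ h3 i
    rw [← pow_mul, pow_eq_pow_mod _ hz, hi, pow_one] at h5
    exact avg_fix ρ h5
  have h6 : avg ρ a (avg ρ b (avg ρ a (x - avg ρ z x))) = (149 : ℝ)⁻¹ • avg ρ a (x - avg ρ z x) := by
    rw [map_sub, map_sub, map_sub, ca, cb, ca, avg_apply ρ b, Finset.sum_range_succ']
    simp only [map_smul, map_add, map_sum, pow_zero, map_one, Module.End.one_apply, pa.idem,
      Finset.sum_congr rfl h2]
    rw [← smul_sub, add_sub_add_left_eq_sub]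
  have h7 := comm_nonneg pa pb h1
  have h8 := angle pa pb h6
  have e1 : (1 - avg ρ a) (x - avg ρ z x) = (1 - avg ρ z) ((1 - avg ρ a) x) := by
    simp [ca]; abel
  have e2 : (1 - avg ρ b) (x - avg ρ z x) = (1 - avg ρ z) ((1 - avg ρ b) x) := by
    simp [cb]; abel
  have e3 : (1 - avg ρ a) (avg ρ z x) = avg ρ z ((1 - avg ρ a) x) := by simp [ca]
  have e4 : (1 - avg ρ b) (avg ρ z x) = avg ρ z ((1 - avg ρ b) x) := by simp [cb]
  rw [e1, e2] at h8
  rw [e3, e4] at h7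
  have h9 := pz.split ((1 - avg ρ a) x) ((1 - avg ρ b) x)
  have f1 := pz.compl.le ((1 - avg ρ a) x)
  have f2 := pz.compl.le ((1 - avg ρ b) x)
  have e5 : ∀ y, (1 - avg ρ z) y = y - avg ρ z y := fun _ => rfl
  rw [← e5, ← e5] at h9
  linarith

lemma gap_step {g : Fin 4 → G} (hg : Rel g) (hρ : ∀ γ x, ‖ρ γ x‖ = ‖x‖) (y : V) :
    ∃ y', ‖y' - y‖ ^ 2 ≤ (∑ i, ‖(1 - avg ρ (g i)) y‖ ^ 2) / 4 ∧
      ∑ i, ‖(1 - avg ρ (g i)) y'‖ ^ 2 ≤ (99 / 100) ^ 2 * ∑ i, ‖(1 - avg ρ (g i)) y‖ ^ 2 := by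
  have p := fun i => (avg_proj hρ (hg.pow i)).compl
  have h01 := heis hρ (hg.pow _) (hg.pow _) hg.h01 y
  have h12 := heis hρ (hg.pow _) (hg.pow _) hg.h12 y
  have h02 := heis hρ (hg.pow _) (hg.pow _) hg.h02 y
  have h13 := heis hρ (hg.pow _) (hg.pow _) hg.h13 y
  have c03 := comm_nonneg (avg_proj hρ (hg.pow 0)) (avg_proj hρ (hg.pow 3))
    (avg_comm' ρ hg.c03.symm y)
  have c23 := comm_nonneg (avg_proj hρ (hg.pow 2)) (avg_proj hρ (hg.pow 3))
    (avg_comm' ρ hg.c23.symm y)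
  set Q := fun i => 1 - avg ρ (g i)
  set D := ∑ i, Q i y with hD
  have h1 : ∀ i, ‖Q i (y - (1 / 4 : ℝ) • D)‖ ^ 2 ≤
      ‖Q i y‖ ^ 2 - ⟪Q i y, D⟫ / 2 + ‖D‖ ^ 2 / 16 := fun i => by
    have := (p i).le D
    rw [map_sub, map_smul, norm_sub_sq_real, inner_smul_right, norm_smul, ← (p i).symm, (p i).idem,
      mul_pow, Real.norm_eq_abs, sq_abs]
    linarith
  have h2 := Finset.sum_le_sum fun i (_ : i ∈ Finset.univ) => h1 i
  have h3 : ‖D‖ ^ 2 = ∑ i, ⟪Q i y, D⟫ := by rw [← sum_inner, real_inner_self_eq_norm_sq]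
  have h4 : ‖D‖ ^ 2 ≤ 4 * ∑ i, ‖Q i y‖ ^ 2 := by
    refine (pow_le_pow_left₀ (norm_nonneg _) (norm_sum_le _ _) 2).trans ?_
    simpa using sq_sum_le_card_mul_sum_sq (s := Finset.univ) (f := fun i => ‖Q i y‖)
  have h5 : ∑ i, ‖Q i y‖ ^ 2 ≤ 10 * ‖D‖ ^ 2 := by
    simp only [hD, Fin.sum_univ_four, norm_add_sq_real, inner_add_left]
    simp only [Q]
    nlinarith [sq_nonneg ‖(1 - avg ρ (g 0)) y‖, sq_nonneg ‖(1 - avg ρ (g 2)) y‖,
      sq_nonneg ‖(1 - avg ρ (g 3)) y‖]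
  have h6 : 0 ≤ ∑ i, ‖Q i y‖ ^ 2 := by positivity
  refine ⟨y - (1 / 4 : ℝ) • D, ?_, ?_⟩
  · rw [sub_sub_cancel_left, norm_neg, norm_smul, mul_pow, Real.norm_eq_abs, sq_abs]
    change _ ≤ (∑ i, ‖Q i y‖ ^ 2) / 4
    linarith
  · simp only [Finset.sum_add_distrib, Finset.sum_sub_distrib, ← Finset.sum_div, ← h3,
      Finset.sum_const, Finset.card_univ, Fintype.card_fin, nsmul_eq_mul] at h2
    change ∑ i, ‖Q i _‖ ^ 2 ≤ _ * ∑ i, ‖Q i y‖ ^ 2
    push_cast at h2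
    linarith

lemma le_avg (hρ : ∀ γ x, ‖ρ γ x‖ = ‖x‖) {a : G} (ha : a ^ 149 = 1) (x : V) :
    ‖ρ a x - x‖ ≤ 2 * ‖(1 - avg ρ a) x‖ ∧ ‖(1 - avg ρ a) x‖ ≤ 149 * ‖ρ a x - x‖ := by
  constructor
  · have h : ρ a x - x = ρ a ((1 - avg ρ a) x) - (1 - avg ρ a) x := by simp [fix_avg ρ ha]
    rw [h, two_mul]
    exact (norm_sub_le _ _).trans_eq (by rw [hρ])
  · have h1 : ∀ j : ℕ, ‖x - ρ (a ^ j) x‖ ≤ j * ‖ρ a x - x‖ := fun j => by
      induction j with
      | zero => simp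
      | succ j ih =>
        have h2 := norm_sub_le_norm_sub_add_norm_sub x (ρ (a ^ j) x) (ρ (a ^ (j + 1)) x)
        rw [pow_succ, map_mul, Module.End.mul_apply, ← map_sub, hρ, norm_sub_rev x (ρ a x)] at h2
        rw [pow_succ, map_mul, Module.End.mul_apply]
        push_cast
        linarith
    have h2 : (1 - avg ρ a) x = (149 : ℝ)⁻¹ • ∑ j ∈ Finset.range 149, (x - ρ (a ^ j) x) := by
      rw [Finset.sum_sub_distrib, smul_sub, ← avg_apply, Finset.sum_const, Finset.card_range,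
        ← Nat.cast_smul_eq_nsmul ℝ, smul_smul]
      norm_num
    have h3 : ‖∑ j ∈ Finset.range 149, (x - ρ (a ^ j) x)‖ ≤
        ∑ j ∈ Finset.range 149, 149 * ‖ρ a x - x‖ := norm_sum_le_of_le _ fun j hj =>
      (h1 j).trans (mul_le_mul_of_nonneg_right (by exact_mod_cast (Finset.mem_range.1 hj).le)
        (norm_nonneg _))
    rw [Finset.sum_const, Finset.card_range, nsmul_eq_mul] at h3
    rw [h2, norm_smul, Real.norm_eq_abs, abs_of_pos (by norm_num)]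
    push_cast at h3
    linarith

end

theorem gap {G V : Type*} [Group G] {g : Fin 4 → G} (hg : Rel g) [SeminormedAddCommGroup V]
    [InnerProductSpace ℝ V] (ρ : G →* (V →ₗ[ℝ] V)) (hρ : ∀ γ x, ‖ρ γ x‖ = ‖x‖) (x : V) {θ : ℝ}
    (hθ : 0 < θ) : ∃ y, ‖y - x‖ ^ 2 ≤ 10 ^ 8 * ∑ i, ‖ρ (g i) x - x‖ ^ 2 ∧
      ∑ i, ‖ρ (g i) y - y‖ ^ 2 ≤ θ := by
  set e := fun y => ∑ i, ‖(1 - avg ρ (g i)) y‖ ^ 2 with he
  set s := √(e x)
  have s0 : 0 ≤ s := Real.sqrt_nonneg _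
  have s1 : s ^ 2 = e x := Real.sq_sqrt (by positivity)
  have h1 : ∀ n : ℕ, ∃ y, ‖y - x‖ ≤ 50 * s * (1 - (99 / 100) ^ n) ∧
      e y ≤ ((99 / 100) ^ n * s) ^ 2 := fun n => by
    induction n with
    | zero => exact ⟨x, by simp, by simp [s1]⟩
    | succ n ih =>
      obtain ⟨y, h1, h2⟩ := ih
      obtain ⟨y', h3, h4⟩ := gap_step hg hρ y
      have h5 : ‖y' - y‖ ≤ (99 / 100) ^ n * s / 2 :=
        (pow_le_pow_iff_left₀ (norm_nonneg _) (by positivity) two_ne_zero).1 (by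
          rw [div_pow]; simp only [he] at h2; linarith)
      refine ⟨y', ?_, h4.trans ?_⟩
      · have := norm_sub_le_norm_sub_add_norm_sub y' y x
        rw [pow_succ]; linarith
      · rw [pow_succ' _ n, mul_assoc, mul_pow]
        exact mul_le_mul_of_nonneg_left h2 (by positivity)
  obtain ⟨n, hn⟩ := exists_pow_lt_of_lt_one (show 0 < θ / (4 * s ^ 2 + 1) by positivity)
    (show (99 / 100 : ℝ) < 1 by norm_num)
  obtain ⟨y, h2, h3⟩ := h1 n
  have p0 : (0 : ℝ) < (99 / 100) ^ n := by positivity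
  have p1 : (99 / 100 : ℝ) ^ n ≤ 1 := pow_le_one₀ (by norm_num) (by norm_num)
  refine ⟨y, ?_, ?_⟩
  · have h4 : e x ≤ ∑ i, 149 ^ 2 * ‖ρ (g i) x - x‖ ^ 2 := Finset.sum_le_sum fun i _ => by
      rw [← mul_pow]
      exact pow_le_pow_left₀ (norm_nonneg _) (le_avg hρ (hg.pow i) x).2 2
    have h5 : ‖y - x‖ ^ 2 ≤ (50 * s) ^ 2 := pow_le_pow_left₀ (norm_nonneg _) (by nlinarith) 2
    have h6 : 0 ≤ ∑ i, ‖ρ (g i) x - x‖ ^ 2 := by positivity
    rw [← Finset.mul_sum] at h4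
    rw [mul_pow] at h5
    linarith
  · have h4 : ∑ i, ‖ρ (g i) y - y‖ ^ 2 ≤ ∑ i, 2 ^ 2 * ‖(1 - avg ρ (g i)) y‖ ^ 2 :=
      Finset.sum_le_sum fun i _ => by
        rw [← mul_pow]
        exact pow_le_pow_left₀ (norm_nonneg _) (le_avg hρ (hg.pow i) y).1 2
    rw [← Finset.mul_sum] at h4
    rw [lt_div_iff₀ (by positivity)] at hn
    simp only [he] at h3
    nlinarith [mul_le_mul_of_nonneg_right p1 (mul_nonneg p0.le (sq_nonneg s))]

end Vale.Agent.P083
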