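import Vale.Agent.P083.Gap

/-! Spectral gap for asymptotic representations. -/

open Filter Topology InnerProductSpace

namespace Vale.Agent.P083

theorem gap_closure {G V : Type*} [Group G] {g : Fin 4 → G} (hg : Rel g) [SeminormedAddCommGroup V]
    [InnerProductSpace ℝ V] (ρ : G →* (V →ₗ[ℝ] V)) (hρ : ∀ γ x, ‖ρ γ x‖ = ‖x‖) (x : V)
    (S : Finset G) (hS : ∀ γ ∈ S, γ ∈ Subgroup.closure (Set.range g)) {θ : ℝ}
    (hθ : 0 < θ) : ∃ y, ‖y - x‖ ^ 2 ≤ 10 ^ 8 * ∑ i, ‖ρ (g i) x - x‖ ^ 2 ∧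
      ∀ γ ∈ S, ‖ρ γ y - y‖ ^ 2 ≤ θ := by
  have key : ∀ γ ∈ Subgroup.closure (Set.range g), ∃ C : ℝ, 0 ≤ C ∧
      ∀ y, ‖ρ γ y - y‖ ^ 2 ≤ C * ∑ i, ‖ρ (g i) y - y‖ ^ 2 := by
    intro γ hγ
    induction hγ using Subgroup.closure_induction with
    | mem γ h =>
      obtain ⟨i, rfl⟩ := h
      refine ⟨1, zero_le_one, fun y => ?_⟩
      rw [one_mul]
      exact Finset.single_le_sum (f := fun i => ‖ρ (g i) y - y‖ ^ 2) (fun _ _ => sq_nonneg _)
        (Finset.mem_univ i)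
    | one => exact ⟨0, le_rfl, fun y => by simp⟩
    | mul a b _ _ ha hb =>
      obtain ⟨C, hC, ha⟩ := ha
      obtain ⟨D, hD, hb⟩ := hb
      refine ⟨2 * (C + D), by positivity, fun y => ?_⟩
      have e : ρ (a * b) y - y = ρ a (ρ b y - y) + (ρ a y - y) := by
        rw [map_mul, map_sub]; simp
      have h1 : ‖ρ (a * b) y - y‖ ≤ ‖ρ b y - y‖ + ‖ρ a y - y‖ := by
        rw [e, ← hρ a (ρ b y - y)]; exact norm_add_le _ _
      have h2 := pow_le_pow_left₀ (norm_nonneg _) h1 2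
      nlinarith [ha y, hb y, sq_nonneg (‖ρ b y - y‖ - ‖ρ a y - y‖)]
    | inv a _ ha =>
      obtain ⟨C, hC, ha⟩ := ha
      refine ⟨C, hC, fun y => ?_⟩
      have e : ρ a (ρ a⁻¹ y - y) = -(ρ a y - y) := by
        rw [map_sub, ← Module.End.mul_apply, ← map_mul]; simp
      rw [← hρ a, e, norm_neg]
      exact ha y
  choose! C hC0 hC using key
  have hP : 0 ≤ ∑ γ ∈ S, C γ := Finset.sum_nonneg fun γ h => hC0 γ (hS γ h)
  obtain ⟨y, h1, h2⟩ := gap hg ρ hρ x (θ := θ / (∑ γ ∈ S, C γ + 1)) (by positivity)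
  refine ⟨y, h1, fun γ h => (hC γ (hS γ h) y).trans ?_⟩
  have h3 : C γ ≤ ∑ γ ∈ S, C γ + 1 :=
    (Finset.single_le_sum (fun γ h => hC0 γ (hS γ h)) h).trans (by linarith)
  calc _ ≤ (∑ γ ∈ S, C γ + 1) * (θ / (∑ γ ∈ S, C γ + 1)) := by gcongr
    _ = θ := by field_simp

theorem gap_core {G V : Type*} [Group G] {g : Fin 4 → G} (hg : Rel g) [AddCommGroup V]
    [Module ℝ V] (B : V → V → ℝ) (hs : ∀ x y, B y x = B x y) (h0 : ∀ x, 0 ≤ B x x)
    (ha : ∀ x y z, B (x + y) z = B x z + B y z) (hm : ∀ x y (r : ℝ), B (r • x) y = r * B x y)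
    (ρ : G →* (V →ₗ[ℝ] V)) (hρ : ∀ γ x, B (ρ γ x) (ρ γ x) = B x x) (x : V)
    (S : Finset G) (hS : ∀ γ ∈ S, γ ∈ Subgroup.closure (Set.range g)) {θ : ℝ}
    (hθ : 0 < θ) : ∃ y, B (y - x) (y - x) ≤ 10 ^ 8 * ∑ i, B (ρ (g i) x - x) (ρ (g i) x - x) ∧
      ∀ γ ∈ S, B (ρ γ y - y) (ρ γ y - y) ≤ θ := by
  letI core : PreInnerProductSpace.Core ℝ V :=
    { inner := B
      conj_inner_symm := fun x y => hs x y
      re_inner_nonneg := h0
      add_left := ha
      smul_left := hm }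
  letI : SeminormedAddCommGroup V := InnerProductSpace.Core.toSeminormedAddCommGroup (𝕜 := ℝ)
  letI : InnerProductSpace ℝ V := InnerProductSpace.ofCore core
  have hn : ∀ x : V, ‖x‖ = √(B x x) := fun x => rfl
  have hn2 : ∀ x : V, ‖x‖ ^ 2 = B x x := fun x => by rw [hn, Real.sq_sqrt (h0 x)]
  have := gap_closure hg ρ (fun γ x => by rw [hn, hn, hρ]) x S hS hθ
  simpa only [hn2] using this

theorem tendsto_sq_congr {ω : Filter ℕ} [ω.NeBot] {E : ℕ → Type*} [∀ m, NormedAddCommGroup (E m)]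
    {a b : ∀ m, E m} {L : ℝ} (h1 : Tendsto (fun m => ‖a m‖ ^ 2) ω (𝓝 L))
    (h2 : Tendsto (fun m => ‖a m - b m‖) ω (𝓝 0)) : Tendsto (fun m => ‖b m‖ ^ 2) ω (𝓝 L) := by
  have hL : 0 ≤ L := ge_of_tendsto' h1 fun m => sq_nonneg _
  have h3 := h1.sqrt
  simp only [Real.sqrt_sq (norm_nonneg _)] at h3
  have h4 : Tendsto (fun m => ‖b m‖) ω (𝓝 √L) := by
    refine h3.congr_dist (squeeze_zero (fun _ => dist_nonneg) (fun m => ?_) h2)
    exact dist_norm_norm_le _ _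
  simpa only [Real.sq_sqrt hL] using h4.pow 2

theorem exists_lim (ω : Ultrafilter ℕ) (u : ℕ → ℝ) (C : ℝ) (h : ∀ m, |u m| ≤ C) :
    ∃ L, Tendsto u ω (𝓝 L) := by
  obtain ⟨L, -, hL⟩ := (isCompact_Icc (a := -C) (b := C)).ultrafilter_le_nhds (ω.map u)
    (Filter.le_principal_iff.2 (Filter.mem_map.2 (Filter.univ_mem' fun m => abs_le.1 (h m))))
  exact ⟨L, hL⟩

/-- left translations -/
noncomputable def lt (G : Type*) [Group G] : G →* ((G →₀ ℝ) →ₗ[ℝ] (G →₀ ℝ)) where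
  toFun γ := Finsupp.lmapDomain ℝ ℝ (γ * ·)
  map_one' := by ext; simp
  map_mul' a b := by ext; simp [mul_assoc]

theorem lt_single {G : Type*} [Group G] (γ a : G) (c : ℝ) :
    lt G γ (Finsupp.single a c) = Finsupp.single (γ * a) c := by simp [lt]

theorem ultraGap {G : Type*} [Group G] {g : Fin 4 → G} (hg : Rel g) (ω : Ultrafilter ℕ)
    {E : ℕ → Type*} [∀ m, NormedAddCommGroup (E m)] [∀ m, InnerProductSpace ℂ (E m)]
    (R : G → ∀ m, E m →ₗ[ℂ] E m) (hb : ∀ γ, ∃ C : ℝ, ∀ m x, ‖R γ m x‖ ≤ C * ‖x‖)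
    (hmul : ∀ γ γ' (ε : ℝ), 0 < ε → ∀ᶠ m in ω, ∀ x,
      ‖R (γ * γ') m x - R γ m (R γ' m x)‖ ≤ ε * ‖x‖)
    (hone : ∀ ε : ℝ, 0 < ε → ∀ᶠ m in ω, ∀ x, ‖R 1 m x - x‖ ≤ ε * ‖x‖)
    (hiso : ∀ γ (ε : ℝ), 0 < ε → ∀ᶠ m in ω, ∀ x, |‖R γ m x‖ ^ 2 - ‖x‖ ^ 2| ≤ ε * ‖x‖ ^ 2)
    (W : ∀ m, Submodule ℂ (E m)) (hW : ∀ γ m, ∀ x ∈ W m, R γ m x ∈ W m)
    (ξ : ∀ m, E m) (hξ : ∀ m, ξ m ∈ W m) (hξ1 : ∀ m, ‖ξ m‖ ≤ 1) {δ : ℝ}
    (hδ : ∀ᶠ m in ω, ∑ i, ‖R (g i) m (ξ m) - ξ m‖ ^ 2 ≤ δ)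
    (S : Finset G) (hS : ∀ γ ∈ S, γ ∈ Subgroup.closure (Set.range g)) {θ : ℝ} (hθ : 0 < θ) :
    ∃ η : ∀ m, E m, (∀ m, η m ∈ W m) ∧ ∀ᶠ m in ω, ‖η m - ξ m‖ ^ 2 ≤ 10 ^ 8 * δ + θ ∧
      ∀ γ ∈ S, ‖R γ m (η m) - η m‖ ^ 2 ≤ θ := by
  let ev : ∀ m, (G →₀ ℝ) →+ E m := fun m => Finsupp.liftAddHom fun γ =>
    AddMonoidHom.mk' (fun c : ℝ => (c : ℂ) • R γ m (ξ m)) fun a b => by
      rw [Complex.ofReal_add, add_smul]
  have ev1 : ∀ m γ (c : ℝ), ev m (Finsupp.single γ c) = (c : ℂ) • R γ m (ξ m) := fun m γ c => by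
    simp [ev]
  have evs : ∀ m (r : ℝ) f, ev m (r • f) = (r : ℂ) • ev m f := by
    intro m r f
    induction f using Finsupp.induction_linear with
    | zero => simp
    | add a b ha hb => rw [smul_add, map_add, map_add, ha, hb, smul_add]
    | single γ c => rw [Finsupp.smul_single, ev1, ev1, smul_smul, smul_eq_mul, Complex.ofReal_mul]
  have evW : ∀ m f, ev m f ∈ W m := by
    intro m f
    induction f using Finsupp.induction_linear with
    | zero => simp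
    | add a b ha hb => rw [map_add]; exact add_mem ha hb
    | single γ c => rw [ev1]; exact Submodule.smul_mem _ _ (hW _ _ _ (hξ m))
  have evb : ∀ f, ∃ C : ℝ, ∀ m, ‖ev m f‖ ≤ C := by
    intro f
    induction f using Finsupp.induction_linear with
    | zero => exact ⟨0, fun m => by simp⟩
    | add a b ha hb =>
      obtain ⟨C, ha⟩ := ha
      obtain ⟨D, hb⟩ := hb
      exact ⟨C + D, fun m => by rw [map_add]; exact norm_add_le_of_le (ha m) (hb m)⟩
    | single γ c =>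
      obtain ⟨C, hC⟩ := hb γ
      refine ⟨‖(c : ℂ)‖ * |C|, fun m => ?_⟩
      rw [ev1, norm_smul]
      gcongr
      refine (hC m _).trans ((mul_le_mul_of_nonneg_right (le_abs_self C) (norm_nonneg _)).trans ?_)
      exact mul_le_of_le_one_right (abs_nonneg _) (hξ1 m)
  have small : ∀ (u : ℕ → ℝ) (c : ℝ), (∀ m, 0 ≤ u m) → 0 ≤ c →
      (∀ ε : ℝ, 0 < ε → ∀ᶠ m in ω, u m ≤ ε * c) → Tendsto u ω (𝓝 0) := by
    intro u c hu hc h
    rw [Metric.tendsto_nhds]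
    intro ε hε
    filter_upwards [h (ε / (c + 1)) (by positivity)] with m hm
    rw [Real.dist_eq, sub_zero, abs_of_nonneg (hu m)]
    refine hm.trans_lt ?_
    rw [div_mul_eq_mul_div, div_lt_iff₀ (by positivity)]
    nlinarith
  have evρ : ∀ γ f, Tendsto (fun m => ‖ev m (lt G γ f) - R γ m (ev m f)‖) ω (𝓝 0) := by
    intro γ f
    induction f using Finsupp.induction_linear with
    | zero => simp
    | add a b ha hb =>
      refine squeeze_zero (fun _ => norm_nonneg _) (fun m => ?_) (by simpa using ha.add hb)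
      rw [map_add, map_add, map_add, map_add, add_sub_add_comm]
      exact norm_add_le _ _
    | single a c =>
      refine small _ ‖(c : ℂ)‖ (fun _ => norm_nonneg _) (norm_nonneg _) fun ε hε => ?_
      filter_upwards [hmul γ a ε hε] with m hm
      rw [lt_single, ev1, ev1, map_smul, ← smul_sub, norm_smul, mul_comm]
      gcongr
      exact (hm _).trans (mul_le_of_le_one_right hε.le (hξ1 m))
  have hlim : ∀ f f', ∃ L, Tendsto (fun m => (⟪ev m f, ev m f'⟫_ℂ).re) ω (𝓝 L) := by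
    intro f f'
    obtain ⟨C, hC⟩ := evb f
    obtain ⟨D, hD⟩ := evb f'
    refine exists_lim ω _ (C * D) fun m => (Complex.abs_re_le_norm _).trans
      ((norm_inner_le_norm _ _).trans ?_)
    exact mul_le_mul (hC m) (hD m) (norm_nonneg _) ((norm_nonneg _).trans (hC m))
  choose B hB using hlim
  have hB2 : ∀ f, Tendsto (fun m => ‖ev m f‖ ^ 2) ω (𝓝 (B f f)) := by
    intro f
    refine (hB f f).congr fun m => ?_
    exact inner_self_eq_norm_sq (𝕜 := ℂ) _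
  have hone' : Tendsto (fun m => ‖R 1 m (ξ m) - ξ m‖) ω (𝓝 0) := by
    refine small _ 1 (fun _ => norm_nonneg _) zero_le_one fun ε hε => ?_
    filter_upwards [hone ε hε] with m hm
    exact (hm _).trans (by gcongr; exact hξ1 m)
  obtain ⟨y, hy1, hy2⟩ := gap_core hg B
    (fun x y => tendsto_nhds_unique (hB y x) ((hB x y).congr fun m => by
      rw [← inner_conj_symm, Complex.conj_re]))
    (fun x => ge_of_tendsto' (hB2 x) fun m => sq_nonneg _)
    (fun x y z => tendsto_nhds_unique (hB _ z) (((hB x z).add (hB y z)).congr fun m => by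
      rw [map_add, inner_add_left, Complex.add_re]))
    (fun x y r => tendsto_nhds_unique (hB _ y) (((hB x y).const_mul r).congr fun m => by
      rw [evs, inner_smul_left, Complex.conj_ofReal, Complex.re_ofReal_mul]))
    (lt G) (fun γ x => by
      have h1 := tendsto_sq_congr (hB2 (lt G γ x)) (evρ γ x)
      refine tendsto_nhds_unique h1 ((hB2 x).congr_dist ?_)
      obtain ⟨C, hC⟩ := evb x
      refine small _ (C ^ 2) (fun _ => dist_nonneg) (sq_nonneg _) fun ε hε => ?_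
      filter_upwards [hiso γ ε hε] with m hm
      rw [dist_comm, Real.dist_eq]
      refine (hm _).trans ?_
      gcongr
      exact hC m)
    (Finsupp.single 1 1) S hS (half_pos hθ)
  have hen : ∑ i, B (lt G (g i) (Finsupp.single 1 1) - Finsupp.single 1 1)
      (lt G (g i) (Finsupp.single 1 1) - Finsupp.single 1 1) ≤ δ := by
    refine le_of_tendsto (tendsto_finset_sum _ fun i _ => ?_) hδ
    refine tendsto_sq_congr (hB2 _) (hone'.congr fun m => ?_)
    rw [map_sub, lt_single, ev1, ev1, mul_one, Complex.ofReal_one, one_smul, one_smul,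
      sub_sub_sub_cancel_left, norm_sub_rev]
  refine ⟨fun m => ev m y, fun m => evW m y, Filter.Eventually.and ?_ ?_⟩
  · have : Tendsto (fun m => ‖ev m y - ξ m‖ ^ 2) ω (𝓝 _) :=
      tendsto_sq_congr (hB2 (y - Finsupp.single 1 1)) (hone'.congr fun m => by
        rw [map_sub, ev1, Complex.ofReal_one, one_smul, sub_sub_sub_cancel_left, norm_sub_rev])
    exact this.eventually_le_const (by linarith)
  · rw [eventually_all_finset]
    intro γ hγ
    have : Tendsto (fun m => ‖R γ m (ev m y) - ev m y‖ ^ 2) ω (𝓝 _) :=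
      tendsto_sq_congr (hB2 (lt G γ y - y)) ((evρ γ y).congr fun m => by
        rw [map_sub, sub_sub_sub_cancel_right])
    exact this.eventually_le_const (by linarith [hy2 γ hγ])

end Vale.Agent.P083
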