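import Mathlib

/-! The norm ultrapower. -/

open Filter Topology BoundedContinuousFunction

namespace Vale.Agent.P083

variable (D : Type*) [CStarAlgebra D] (ω : Ultrafilter ℕ)

/-- bounded sequences whose norms tend to zero along the ultrafilter -/
def nullIdeal : Ideal (ℕ →ᵇ D) where
  carrier := {b | Tendsto (fun n => ‖b n‖) ω (𝓝 0)}
  zero_mem' := by simp
  add_mem' {a b} ha hb := squeeze_zero (fun _ => norm_nonneg _) (fun _ => norm_add_le _ _)
    (by simpa using Tendsto.add ha hb)
  smul_mem' c b hb := squeeze_zero (fun _ => norm_nonneg _) (fun n => (norm_mul_le _ _).trans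
    (mul_le_mul_of_nonneg_right (c.norm_coe_le_norm n) (norm_nonneg _)))
    (by simpa using Tendsto.const_mul ‖c‖ hb)

instance : (nullIdeal D ω).IsTwoSided where
  mul_mem_of_left {b} c hb := squeeze_zero (fun _ => norm_nonneg _) (fun n => (norm_mul_le _ _).trans
    (mul_le_mul_of_nonneg_left (c.norm_coe_le_norm n) (norm_nonneg _)))
    (by simpa using Tendsto.mul_const ‖c‖ hb)

/-- the norm ultrapower: bounded sequences modulo null sequences -/
def Ultrapower : Type _ := (ℕ →ᵇ D) ⧸ nullIdeal D ω

noncomputable instance : Ring (Ultrapower D ω) :=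
  inferInstanceAs (Ring ((ℕ →ᵇ D) ⧸ nullIdeal D ω))

noncomputable instance : Algebra ℂ (Ultrapower D ω) :=
  inferInstanceAs (Algebra ℂ ((ℕ →ᵇ D) ⧸ nullIdeal D ω))

/-- the involution induced by the pointwise involution -/
noncomputable instance : Star (Ultrapower D ω) where
  star := Quotient.map' star fun a b h => (Submodule.quotientRel_def _).2 (by
    have h1 : Tendsto (fun n => ‖(a - b) n‖) ω (𝓝 0) := (Submodule.quotientRel_def _).1 h
    refine h1.congr fun n => ?_
    rw [← star_sub]
    exact (norm_star _).symm)

end Vale.Agent.P083
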